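import Mathlib

/-!
# Abstract combinatorial core for the greedy superstring bound

`Valid`, `GoodL`, `peak_false`: an alternating sequence of compatible pairs and greedy links with
free ends always contains a pair whose tail and head are both still alive (the peak lemma).

`Path`: walks in a pair of partial injections; terminal existence and injectivity.
-/

namespace Vale.Agent.Lib.P333G

section Peak

variable {β : Type*}

/-- alternating sequence with first in-element `w`, links `(u, w')`, last out-element `ue` -/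
def Valid (Comp Lk : β → β → Prop) : β → List (β × β) → β → Prop
  | w, [], ue => Comp ue w
  | w, (u, w') :: t, ue => Comp u w ∧ Lk u w' ∧ Valid Comp Lk w' t ue

/-- the out-element paired with the next in-element -/
def nextU : List (β × β) → β → β
  | [], ue => ue
  | (u, _) :: _, _ => u

/-- no contraction is possible anywhere in the sequence -/
def NC (Ll Rr : β → ℕ) : β → List (β × β) → β → Prop
  | _, [], _ => True
  | w, (u, w') :: t, ue => (Ll w' < Ll w ∨ Rr u < Rr (nextU t ue)) ∧ NC Ll Rr w' t ue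

/-- all out-elements from here on satisfy `NT` -/
def AllNT (NT : β → Prop) : List (β × β) → β → Prop
  | [], ue => NT ue
  | (u, _) :: t, ue => NT u ∧ AllNT NT t ue

/-- first a run of pairs whose in-element satisfies `NH`, then a run whose out-element satisfies
`NT` -/
def GoodL (NT NH : β → Prop) : β → List (β × β) → β → Prop
  | w, [], ue => NH w ∨ NT ue
  | w, (u, w') :: t, ue => (NH w ∧ GoodL NT NH w' t ue) ∨ (NT u ∧ AllNT NT t ue)

theorem allNT_good {NT NH : β → Prop} (w : β) (t : List (β × β)) (ue : β)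
    (h : AllNT NT t ue) : GoodL NT NH w t ue := by
  induction t generalizing w with
  | nil => exact Or.inr h
  | cons p t _ =>
    obtain ⟨u, w'⟩ := p
    exact Or.inr h

/-- hypotheses of the peak lemma -/
structure PeakData (Comp Lk : β → β → Prop) (Ll Rr : β → ℕ)
    (TailOK HeadOK : β → β → Prop) : Prop where
  contr : ∀ u w u' w', Comp u w → Lk u w' → Comp u' w' → Rr u' ≤ Rr u → Ll w ≤ Ll w' → Comp u' w
  tail_link : ∀ u w w', Comp u w → Lk u w' → Ll w' < Ll w → TailOK u w
  tail_free : ∀ u w, Comp u w → (∀ w', ¬ Lk u w') → TailOK u w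
  head_link : ∀ u u' w, Comp u w → Lk u' w → Rr u' < Rr u → HeadOK u w
  head_free : ∀ u w, Comp u w → (∀ u', ¬ Lk u' w) → HeadOK u w

variable {Comp Lk : β → β → Prop} {Ll Rr : β → ℕ} {TailOK HeadOK : β → β → Prop}
  {NT NH : β → Prop}

theorem valid_nextU {w : β} {links : List (β × β)} {ue : β} (hV : Valid Comp Lk w links ue) :
    Comp (nextU links ue) w := by
  cases links with
  | nil => exact hV
  | cons p t =>
    obtain ⟨u, w'⟩ := p
    exact hV.1

theorem scan (hd : PeakData Comp Lk Ll Rr TailOK HeadOK)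
    (hNT : ∀ u w, NT u → Comp u w → TailOK u w → HeadOK u w → False)
    (hNH : ∀ u w, NH w → Comp u w → TailOK u w → HeadOK u w → False)
    (w : β) (links : List (β × β)) (ue : β)
    (hV : Valid Comp Lk w links ue) (hNC : NC Ll Rr w links ue)
    (hG : GoodL NT NH w links ue) (hHead : HeadOK (nextU links ue) w)
    (hfree : ∀ w', ¬ Lk ue w') : False := by
  induction links generalizing w with
  | nil =>
    have hT := hd.tail_free ue w hV hfree
    rcases hG with h | h
    · exact hNH ue w h hV hT hHead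
    · exact hNT ue w h hV hT hHead
  | cons p t ih =>
    obtain ⟨u, w'⟩ := p
    obtain ⟨hc, hl, hV'⟩ := hV
    obtain ⟨hn1, hn2⟩ := hNC
    by_cases hlt : Ll w' < Ll w
    · have hT := hd.tail_link u w w' hc hl hlt
      rcases hG with ⟨h, _⟩ | ⟨h, _⟩
      · exact hNH u w h hc hT hHead
      · exact hNT u w h hc hT hHead
    · have hR : Rr u < Rr (nextU t ue) := by
        rcases hn1 with h | h
        · exact absurd h hlt
        · exact h
      have hH' : HeadOK (nextU t ue) w' := hd.head_link _ u w' (valid_nextU hV') hl hR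
      have hG' : GoodL NT NH w' t ue := by
        rcases hG with ⟨_, h⟩ | ⟨_, h⟩
        · exact h
        · exact allNT_good w' t ue h
      exact ih w' hV' hn2 hG' hH'

theorem contract (hd : PeakData Comp Lk Ll Rr TailOK HeadOK)
    (w : β) (links : List (β × β)) (ue : β)
    (hV : Valid Comp Lk w links ue) (hG : GoodL NT NH w links ue)
    (hnNC : ¬ NC Ll Rr w links ue) :
    ∃ links' : List (β × β), links'.length < links.length ∧ Valid Comp Lk w links' ue ∧
      GoodL NT NH w links' ue ∧ (AllNT NT links ue → AllNT NT links' ue) := by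
  induction links generalizing w with
  | nil => exact absurd trivial hnNC
  | cons p t ih =>
    obtain ⟨u, w'⟩ := p
    obtain ⟨hc, hl, hV'⟩ := hV
    by_cases hcase : (Ll w' < Ll w ∨ Rr u < Rr (nextU t ue))
    · have hn : ¬ NC Ll Rr w' t ue := fun h => hnNC ⟨hcase, h⟩
      have hG' : GoodL NT NH w' t ue := by
        rcases hG with ⟨_, h⟩ | ⟨_, h⟩
        · exact h
        · exact allNT_good w' t ue h
      obtain ⟨t', hlen, hVt, hGt, hAll⟩ := ih w' hV' hG' hn
      refine ⟨(u, w') :: t', by simpa using hlen, ⟨hc, hl, hVt⟩, ?_, ?_⟩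
      · rcases hG with ⟨h, _⟩ | ⟨h, h2⟩
        · exact Or.inl ⟨h, hGt⟩
        · exact Or.inr ⟨h, hAll h2⟩
      · rintro ⟨h1, h2⟩
        exact ⟨h1, hAll h2⟩
    · push Not at hcase
      obtain ⟨h1, h2⟩ := hcase
      cases t with
      | nil =>
        refine ⟨[], by simp, ?_, ?_, ?_⟩
        · exact hd.contr u w ue w' hc hl hV' h2 h1
        · rcases hG with ⟨h, _⟩ | ⟨_, h⟩
          · exact Or.inl h
          · exact Or.inr h
        · rintro ⟨_, h⟩
          exact h
      | cons q t' =>
        obtain ⟨u₂, w₂⟩ := q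
        obtain ⟨hc2, hl2, hV2⟩ := hV'
        refine ⟨(u₂, w₂) :: t', by simp, ?_, ?_, ?_⟩
        · exact ⟨hd.contr u w u₂ w' hc hl hc2 h2 h1, hl2, hV2⟩
        · rcases hG with ⟨h, h'⟩ | ⟨_, h⟩
          · rcases h' with ⟨_, h3⟩ | h3
            · exact Or.inl ⟨h, h3⟩
            · exact Or.inr h3
          · exact Or.inr h
        · rintro ⟨_, h⟩
          exact h

/-- **Peak lemma**: an alternating sequence with free ends cannot satisfy `GoodL`. -/
theorem peak_false (hd : PeakData Comp Lk Ll Rr TailOK HeadOK)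
    (hNT : ∀ u w, NT u → Comp u w → TailOK u w → HeadOK u w → False)
    (hNH : ∀ u w, NH w → Comp u w → TailOK u w → HeadOK u w → False)
    (n : ℕ) : ∀ (w : β) (links : List (β × β)) (ue : β), links.length = n →
    Valid Comp Lk w links ue → GoodL NT NH w links ue → (∀ u, ¬ Lk u w) → (∀ w', ¬ Lk ue w') →
    False := by
  induction n using Nat.strong_induction_on with
  | _ n ih =>
    intro w links ue hlen hV hG hf hl
    by_cases hNC : NC Ll Rr w links ue
    · exact scan hd hNT hNH w links ue hV hNC hG (hd.head_free _ w (valid_nextU hV) hf) hl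
    · obtain ⟨links', hlt, hV', hG', _⟩ := contract hd w links ue hV hG hNC
      exact ih links'.length (by omega) w links' ue rfl hV' hG' hf hl

end Peak

section Walk

variable {β : Type*}

/-- walk: from in-element `a`, go back along `p` to `u`, forward along `g` to `b`. -/
inductive Path (p g : β → β → Prop) : β → List (β × β) → β → Prop
  | nil (a : β) : Path p g a [] a
  | cons {a u b : β} {t : List (β × β)} {e : β} :
      p u a → g u b → Path p g b t e → Path p g a ((u, b) :: t) e

variable {p g : β → β → Prop}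

theorem exists_terminal
    (gcodet : ∀ u u' w, g u w → g u' w → u = u')
    (pcodet : ∀ u w w', p u w → p u w' → w = w')
    (n : ℕ) :
    ∀ (A : Finset β), A.card = n → (∀ a ∈ A, ∀ u b, p u a → g u b → b ∈ A) →
    ∀ a ∈ A, (∀ x ∈ A, ∀ u, p u x → ¬ g u a) →
    ∃ t e, Path p g a t e ∧ ∀ u b, p u e → ¬ g u b := by
  classical
  induction n with
  | zero =>
    intro A hA _ a ha
    rw [Finset.card_eq_zero] at hA
    simp [hA] at ha
  | succ n ih =>
    intro A hA hcl a ha hst
    by_cases h : ∃ u b, p u a ∧ g u b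
    · obtain ⟨u, b, hu, hb⟩ := h
      have hbA : b ∈ A := hcl a ha u b hu hb
      have hne : b ≠ a := by
        rintro rfl
        exact hst b ha u hu hb
      have hcard : (A.erase a).card = n := by
        rw [Finset.card_erase_of_mem ha, hA]; rfl
      have hcl' : ∀ x ∈ A.erase a, ∀ u b, p u x → g u b → b ∈ A.erase a := by
        intro x hx u' y hp hg
        have hxA := Finset.mem_of_mem_erase hx
        refine Finset.mem_erase.mpr ⟨?_, hcl x hxA u' y hp hg⟩
        rintro rfl
        exact hst x hxA u' hp hg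
      have hst' : ∀ x ∈ A.erase a, ∀ u', p u' x → ¬ g u' b := by
        intro x hx u' hp hg
        have : u' = u := gcodet _ _ _ hg hb
        subst this
        exact (Finset.mem_erase.mp hx).1 (pcodet _ _ _ hp hu)
      obtain ⟨t, e, hP, hS⟩ := ih (A.erase a) hcard hcl' b (Finset.mem_erase.mpr ⟨hne, hbA⟩) hst'
      exact ⟨(u, b) :: t, e, Path.cons hu hb hP, hS⟩
    · refine ⟨[], a, Path.nil a, ?_⟩
      intro u b hu hb
      exact h ⟨u, b, hu, hb⟩

theorem path_last {a e : β} {t : List (β × β)} (h : Path p g a t e) (hne : t ≠ []) :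
    ∃ x u t₁, Path p g a t₁ x ∧ p u x ∧ g u e ∧ t₁.length < t.length := by
  induction h with
  | nil a => exact absurd rfl hne
  | @cons a u b t e hp hg hP ih =>
    by_cases ht : t = []
    · subst ht
      cases hP with
      | nil => exact ⟨a, u, [], Path.nil a, hp, hg, by simp⟩
    · obtain ⟨x, u', t₁, hP1, hp1, hg1, hlt⟩ := ih ht
      exact ⟨x, u', (u, b) :: t₁, Path.cons hp hg hP1, hp1, hg1, by simpa using hlt⟩

theorem path_inj
    (gcodet : ∀ u u' w, g u w → g u' w → u = u')
    (pcodet : ∀ u w w', p u w → p u w' → w = w')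
    (n : ℕ) : ∀ (a a' e : β) (t t' : List (β × β)), t.length + t'.length = n →
    Path p g a t e → Path p g a' t' e →
    (∀ u, ¬ g u a) → (∀ u, ¬ g u a') → a = a' := by
  induction n using Nat.strong_induction_on with
  | _ n ih =>
    intro a a' e t t' hlen hP hP' hs hs'
    by_cases ht : t = []
    · subst ht
      cases hP with
      | nil =>
        by_cases ht' : t' = []
        · subst ht'
          cases hP' with
          | nil => rfl
        · obtain ⟨x, u, t₁, _, _, hg, _⟩ := path_last hP' ht'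
          exact absurd hg (hs u)
    · by_cases ht' : t' = []
      · subst ht'
        cases hP' with
        | nil =>
          obtain ⟨x, u, t₁, _, _, hg, _⟩ := path_last hP ht
          exact absurd hg (hs' u)
      · obtain ⟨x, u, t₁, hP1, hp1, hg1, hlt⟩ := path_last hP ht
        obtain ⟨x', u', t₁', hP1', hp1', hg1', hlt'⟩ := path_last hP' ht'
        have hu : u = u' := gcodet _ _ _ hg1 hg1'
        subst hu
        have hx : x = x' := pcodet _ _ _ hp1 hp1'
        subst hx
        exact ih (t₁.length + t₁'.length) (by omega) a a' x t₁ t₁' rfl hP1 hP1' hs hs'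

/-- counting by an injective relation -/
theorem card_le_of_rel {γ δ : Type*} {P : Finset γ} {Q : Finset δ} (r : γ → δ → Prop)
    (h1 : ∀ a ∈ P, ∃ b ∈ Q, r a b)
    (h2 : ∀ a ∈ P, ∀ a' ∈ P, ∀ b ∈ Q, r a b → r a' b → a = a') : P.card ≤ Q.card := by
  classical
  by_cases hP : P.Nonempty
  · obtain ⟨a0, ha0⟩ := hP
    obtain ⟨b0, _, _⟩ := h1 a0 ha0
    haveI : Nonempty δ := ⟨b0⟩
    choose! f hfQ hfr using h1
    refine Finset.card_le_card_of_injOn f hfQ ?_
    intro a ha a' ha' hEq
    have ha1 : a ∈ P := ha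
    have ha2 : a' ∈ P := ha'
    exact h2 a ha1 a' ha2 (f a) (hfQ a ha1) (hfr a ha1) (hEq ▸ hfr a' ha2)
  · rw [Finset.not_nonempty_iff_eq_empty.mp hP]
    simp

/-- the side count: starts whose walk does not end badly inject into the firsts -/
theorem side_count [DecidableEq β] (A Starts Firsts Bd : Finset β)
    (gcodet : ∀ u u' w, g u w → g u' w → u = u')
    (pcodet : ∀ u w w', p u w → p u w' → w = w')
    (hclosed : ∀ a ∈ A, ∀ u b, p u a → g u b → b ∈ A)
    (hStarts : ∀ a ∈ Starts, a ∈ A ∧ ∀ u, ¬ g u a)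
    (hFirsts : ∀ w ∈ A, (∀ u, ¬ p u w) → w ∈ Firsts)
    (hpath_mem : ∀ a t e, a ∈ A → Path p g a t e → e ∈ A)
    (hBad : ∀ a t e u, a ∈ Starts → Path p g a t e → p u e → (∀ b, ¬ g u b) → a ∈ Bd) :
    Starts.card ≤ Firsts.card + (Starts ∩ Bd).card := by
  have hsplit : (Starts \ Bd).card + (Starts ∩ Bd).card = Starts.card :=
    Finset.card_sdiff_add_card_inter Starts Bd
  have hg : (Starts \ Bd).card ≤ Firsts.card := by
    refine card_le_of_rel (fun a e => ∃ t, Path p g a t e) ?_ ?_
    · intro a ha
      obtain ⟨ha1, ha2⟩ := Finset.mem_sdiff.mp ha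
      obtain ⟨hA, hs⟩ := hStarts a ha1
      obtain ⟨t, e, hP, hS⟩ := exists_terminal gcodet pcodet A.card A rfl hclosed a hA
        (fun x _ u _ hg => hs u hg)
      refine ⟨e, hFirsts e (hpath_mem a t e hA hP) ?_, t, hP⟩
      intro u hu
      exact ha2 (hBad a t e u ha1 hP hu (fun b => hS u b hu))
    · intro a ha a' ha' e _ ⟨t, hP⟩ ⟨t', hP'⟩
      obtain ⟨ha1, _⟩ := Finset.mem_sdiff.mp ha
      obtain ⟨ha1', _⟩ := Finset.mem_sdiff.mp ha'
      exact path_inj gcodet pcodet _ a a' e t t' rfl hP hP' (hStarts a ha1).2 (hStarts a' ha1').2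
  omega


section PathValid

variable {Comp Lk : β → β → Prop} {NT NH : β → Prop}

theorem valid_of_path (hpc : ∀ u w, p u w → Comp u w) (hgl : ∀ u w, g u w → Lk u w)
    {a e u₀ : β} {t : List (β × β)} (hP : Path p g a t e) (h0 : p u₀ e) :
    Valid Comp Lk a t u₀ := by
  induction hP with
  | nil a => exact hpc _ _ h0
  | cons hp hg _ ih => exact ⟨hpc _ _ hp, hgl _ _ hg, ih h0⟩

theorem valid_concat (hpc : ∀ u w, p u w → Comp u w) (hgl : ∀ u w, g u w → Lk u w)
    {a e u₀ y ue : β} {t t₂ : List (β × β)} (hP : Path p g a t e) (h0 : p u₀ e) (hl : Lk u₀ y)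
    (hV : Valid Comp Lk y t₂ ue) : Valid Comp Lk a (t ++ (u₀, y) :: t₂) ue := by
  induction hP with
  | nil a => exact ⟨hpc _ _ h0, hl, hV⟩
  | cons hp hg _ ih => exact ⟨hpc _ _ hp, hgl _ _ hg, ih h0⟩

theorem good_end (hNH : ∀ u w, p u w → NH w)
    {a e u₀ : β} {t : List (β × β)} (hP : Path p g a t e) (h0 : p u₀ e) :
    GoodL NT NH a t u₀ := by
  induction hP with
  | nil a => exact Or.inl (hNH _ _ h0)
  | cons hp _ _ ih => exact Or.inl ⟨hNH _ _ hp, ih h0⟩

theorem good_concat (hNH : ∀ u w, p u w → NH w)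
    {a e u₀ y ue : β} {t t₂ : List (β × β)} (hP : Path p g a t e) (h0 : p u₀ e)
    (hG : GoodL NT NH y t₂ ue) : GoodL NT NH a (t ++ (u₀, y) :: t₂) ue := by
  induction hP with
  | nil a => exact Or.inl ⟨hNH _ _ h0, hG⟩
  | cons hp _ _ ih => exact Or.inl ⟨hNH _ _ hp, ih h0⟩

theorem allNT_path (hNT : ∀ u w, p u w → NT u)
    {a e u₀ : β} {t : List (β × β)} (hP : Path p g a t e) (h0 : p u₀ e) :
    AllNT NT t u₀ := by
  induction hP with
  | nil a => exact hNT _ _ h0
  | cons hp _ _ ih => exact ⟨hNT _ _ hp, ih h0⟩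

end PathValid

end Walk

end Vale.Agent.Lib.P333G
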