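import Vale.Agent.Lib.P333G.Layout
import Vale.Agent.Lib.P333G.Abstract

/-!
# The concrete pair/link structure on occurrences
-/

namespace Vale.Agent.Lib.P333G

variable {α : Type*}

section Generic

variable {F : Finset (List α)} {Z : List α} {f : List α → ℕ}

theorem lay_mono (hsf : SF F) (hZ : ∀ s ∈ F, At Z s (f s)) {s t : List α} (hs : s ∈ F)
    (ht : t ∈ F) (h : f s < f t) : f s + s.length < f t + t.length := by
  by_contra hc
  have hi : t <:+: s := infix_of_at (hZ s hs) (hZ t ht) (le_of_lt h) (by omega)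
  have := hsf t ht s hs hi
  subst this
  omega

theorem lay_inj (hsf : SF F) (hZ : ∀ s ∈ F, At Z s (f s)) {s t : List α} (hs : s ∈ F)
    (ht : t ∈ F) (h : f s = f t) : s = t := by
  by_cases hl : s.length ≤ t.length
  · exact hsf s hs t ht (infix_of_at (hZ t ht) (hZ s hs) (le_of_eq h.symm) (by omega))
  · exact (hsf t ht s hs (infix_of_at (hZ s hs) (hZ t ht) (le_of_eq h) (by omega))).symm

end Generic

/-- a family with a greedy layout in `G` and a layout in a superstring `T`. -/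
structure Setup (α : Type*) [DecidableEq α] where
  F : Finset (List α)
  G : List α
  T : List α
  st : List α → ℕ
  tt : List α → ℕ
  hsf : SF F
  hL : IsLayout F G st
  hT : ∀ s ∈ F, At T s (tt s)

namespace Setup

variable [DecidableEq α] (D : Setup α)

/-- occurrences of letters in the strings of the family -/
def O : Finset (List α × ℕ) :=
  D.F.biUnion fun s => (Finset.range s.length).image fun i => (s, i)

theorem mem_O {ρ : List α × ℕ} : ρ ∈ D.O ↔ ρ.1 ∈ D.F ∧ ρ.2 < ρ.1.length := by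
  obtain ⟨s, i⟩ := ρ
  simp only [O, Finset.mem_biUnion, Finset.mem_image, Finset.mem_range, Prod.mk.injEq]
  constructor
  · rintro ⟨a, ha, k, hk, rfl, rfl⟩
    exact ⟨ha, hk⟩
  · rintro ⟨h1, h2⟩
    exact ⟨s, h1, i, h2, rfl, rfl⟩

/-- position in `G` -/
def pos (ρ : List α × ℕ) : ℕ := D.st ρ.1 + ρ.2

/-- position in `T` -/
def cel (ρ : List α × ℕ) : ℕ := D.tt ρ.1 + ρ.2

/-- letters from the occurrence to the end of the string -/
def Rr (ρ : List α × ℕ) : ℕ := ρ.1.length - ρ.2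

/-- letters from the start of the string to the occurrence, inclusive -/
def Ll (ρ : List α × ℕ) : ℕ := ρ.2 + 1

/-- overlap length of the alignment of `u`, `w` -/
def om (u w : List α × ℕ) : ℕ := u.1.length - u.2 + w.2

/-- `u`, `w` are aligned occurrences, with the string of `u` starting strictly before and ending
strictly before the string of `w`, the letters agreeing on the overlap. -/
structure Comp (u w : List α × ℕ) : Prop where
  hu : u ∈ D.O
  hw : w ∈ D.O
  lt : w.2 < u.2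
  lenlt : u.1.length < u.2 - w.2 + w.1.length
  letters : ∀ m, u.2 - w.2 + m < u.1.length → u.1[u.2 - w.2 + m]? = w.1[m]?

/-- the tail of the string of `u` is still unused at the level of the alignment -/
def TailOK (u w : List α × ℕ) : Prop := ¬ HasOut D.F D.st u.1 (om u w)

/-- the head of the string of `w` is still unused at the level of the alignment -/
def HeadOK (u w : List α × ℕ) : Prop := ¬ HasIn D.F D.st w.1 (om u w)

/-- closure pair -/
def CP (u w : List α × ℕ) : Prop := D.Comp u w ∧ D.TailOK u w ∧ D.HeadOK u w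

def IsTail (u : List α × ℕ) : Prop := ∃ w, D.CP u w

def IsHead (w : List α × ℕ) : Prop := ∃ u, D.CP u w

/-- `u`, `w` lie on the same position of `G`, the string of `w` is the next one after that of `u` -/
structure Lk (u w : List α × ℕ) : Prop where
  hu : u ∈ D.O
  hw : w ∈ D.O
  lt : D.st u.1 < D.st w.1
  next : ∀ c ∈ D.F, D.st u.1 < D.st c → D.st w.1 ≤ D.st c
  eq : D.pos u = D.pos w

/-- within `A`: `u` is the last occurrence at the `T`-position of `w` before `w`. -/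
structure Prev (A : Finset (List α × ℕ)) (u w : List α × ℕ) : Prop where
  hu : u ∈ A
  hw : w ∈ A
  eq : D.cel u = D.cel w
  lt : D.tt u.1 < D.tt w.1
  max : ∀ v ∈ A, D.cel v = D.cel w → D.tt v.1 < D.tt w.1 → D.tt v.1 ≤ D.tt u.1

variable {D}

theorem stmono {s t : List α} (hs : s ∈ D.F) (ht : t ∈ D.F) (h : D.st s < D.st t) :
    D.st s + s.length < D.st t + t.length := lay_mono D.hsf D.hL.at_ hs ht h

theorem stinj {s t : List α} (hs : s ∈ D.F) (ht : t ∈ D.F) (h : D.st s = D.st t) : s = t :=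
  lay_inj D.hsf D.hL.at_ hs ht h

theorem stmono_le {s t : List α} (hs : s ∈ D.F) (ht : t ∈ D.F) (h : D.st s ≤ D.st t) :
    D.st s + s.length ≤ D.st t + t.length := by
  rcases lt_or_eq_of_le h with h | h
  · exact le_of_lt (stmono hs ht h)
  · have := stinj hs ht h
    subst this
    exact le_refl _

theorem exists_next {a c : List α} (hc : c ∈ D.F) (h : D.st a < D.st c) :
    ∃ n ∈ D.F, D.st a < D.st n ∧ ∀ c' ∈ D.F, D.st a < D.st c' → D.st n ≤ D.st c' := by
  classical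
  have hne : (D.F.filter fun s => D.st a < D.st s).Nonempty :=
    ⟨c, Finset.mem_filter.mpr ⟨hc, h⟩⟩
  obtain ⟨n, hn, hmin⟩ := Finset.exists_min_image _ D.st hne
  obtain ⟨hn1, hn2⟩ := Finset.mem_filter.mp hn
  exact ⟨n, hn1, hn2, fun c' h1 h2 => hmin c' (Finset.mem_filter.mpr ⟨h1, h2⟩)⟩

theorem exists_pred {b c : List α} (hc : c ∈ D.F) (h : D.st c < D.st b) :
    ∃ n ∈ D.F, D.st n < D.st b ∧ ∀ c' ∈ D.F, D.st c' < D.st b → D.st c' ≤ D.st n := by
  classical
  have hne : (D.F.filter fun s => D.st s < D.st b).Nonempty :=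
    ⟨c, Finset.mem_filter.mpr ⟨hc, h⟩⟩
  obtain ⟨n, hn, hmax⟩ := Finset.exists_max_image _ D.st hne
  obtain ⟨hn1, hn2⟩ := Finset.mem_filter.mp hn
  exact ⟨n, hn1, hn2, fun c' h1 h2 => hmax c' (Finset.mem_filter.mpr ⟨h1, h2⟩)⟩

theorem comp_of_at {f : List α → ℕ} {Z : List α} (hZ : ∀ s ∈ D.F, At Z s (f s))
    {u w : List α × ℕ} (hu : u ∈ D.O) (hw : w ∈ D.O)
    (heq : f u.1 + u.2 = f w.1 + w.2) (hlt : f u.1 < f w.1) : D.Comp u w := by
  obtain ⟨hu1, hu2⟩ := D.mem_O.mp hu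
  obtain ⟨hw1, hw2⟩ := D.mem_O.mp hw
  have hm := lay_mono D.hsf hZ hu1 hw1 hlt
  refine ⟨hu, hw, by omega, by omega, ?_⟩
  intro m hm'
  rw [← hZ u.1 hu1 _ hm', ← hZ w.1 hw1 m (by omega)]
  congr 1
  omega

theorem peakData : PeakData D.Comp D.Lk Ll Rr D.TailOK D.HeadOK where
  contr := by
    intro u w u' w' h1 h2 h3 h4 h5
    obtain ⟨hu1, hu2⟩ := D.mem_O.mp h1.hu
    obtain ⟨hw1, hw2⟩ := D.mem_O.mp h1.hw
    obtain ⟨hu1', hu2'⟩ := D.mem_O.mp h3.hu
    obtain ⟨hw1', hw2'⟩ := D.mem_O.mp h3.hw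
    have h4' : u'.1.length - u'.2 ≤ u.1.length - u.2 := h4
    have h5' : w.2 + 1 ≤ w'.2 + 1 := h5
    have hlt1 := h1.lt
    have hlt3 := h3.lt
    have hl1 := h1.lenlt
    have hl3 := h3.lenlt
    have heq : D.st u.1 + u.2 = D.st w'.1 + w'.2 := h2.eq
    refine ⟨h3.hu, h1.hw, by omega, by omega, ?_⟩
    intro m hm
    have e1 : u'.1[u'.2 - w.2 + m]? = w'.1[w'.2 - w.2 + m]? := by
      have := h3.letters (w'.2 - w.2 + m) (by omega)
      rwa [show u'.2 - w'.2 + (w'.2 - w.2 + m) = u'.2 - w.2 + m by omega] at this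
    have e2 : w'.1[w'.2 - w.2 + m]? = u.1[u.2 - w.2 + m]? := by
      rw [← D.hL.at_ w'.1 hw1' _ (by omega), ← D.hL.at_ u.1 hu1 _ (by omega)]
      congr 1
      omega
    rw [e1, e2]
    exact h1.letters m (by omega)
  tail_link := by
    rintro u w w' h1 h2 h3 ⟨c, hc, hlt, hle⟩
    have h4 := h2.next c hc hlt
    have heq : D.st u.1 + u.2 = D.st w'.1 + w'.2 := h2.eq
    have h3' : w'.2 + 1 < w.2 + 1 := h3
    have hu2 := (D.mem_O.mp h1.hu).2
    have hle' : D.st c + (u.1.length - u.2 + w.2) ≤ D.st u.1 + u.1.length := hle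
    omega
  tail_free := by
    rintro u w h1 h2 ⟨c, hc, hlt, hle⟩
    obtain ⟨n, hn, hn1, hn2⟩ := exists_next (D := D) hc hlt
    have h4 := hn2 c hc hlt
    obtain ⟨hu1, hu2⟩ := D.mem_O.mp h1.hu
    have hle' : D.st c + (u.1.length - u.2 + w.2) ≤ D.st u.1 + u.1.length := hle
    have hm := stmono hu1 hn hn1
    refine h2 (n, D.st u.1 + u.2 - D.st n) ⟨h1.hu, D.mem_O.mpr ⟨hn, ?_⟩, hn1, hn2, ?_⟩
    · show D.st u.1 + u.2 - D.st n < n.length
      omega
    · show D.st u.1 + u.2 = D.st n + (D.st u.1 + u.2 - D.st n)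
      omega
  head_link := by
    rintro u u' w h1 h2 h3 ⟨c, hc, hlt, hle⟩
    obtain ⟨hu1, hu2⟩ := D.mem_O.mp h1.hu
    obtain ⟨hu1', hu2'⟩ := D.mem_O.mp h2.hu
    have hle' : D.st w.1 + (u.1.length - u.2 + w.2) ≤ D.st c + c.length := hle
    have h3' : u'.1.length - u'.2 < u.1.length - u.2 := h3
    have heq : D.st u'.1 + u'.2 = D.st w.1 + w.2 := h2.eq
    have h4 : D.st c ≤ D.st u'.1 := by
      by_contra hcon
      have := h2.next c hc (by omega)
      omega
    have h5 := stmono_le hc hu1' h4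
    omega
  head_free := by
    rintro u w h1 h2 ⟨c, hc, hlt, hle⟩
    obtain ⟨n, hn, hn1, hn2⟩ := exists_pred (D := D) hc hlt
    have h4 := hn2 c hc hlt
    obtain ⟨hu1, hu2⟩ := D.mem_O.mp h1.hu
    obtain ⟨hw1, hw2⟩ := D.mem_O.mp h1.hw
    have hle' : D.st w.1 + (u.1.length - u.2 + w.2) ≤ D.st c + c.length := hle
    have hm := stmono_le hc hn h4
    refine h2 (n, D.st w.1 + w.2 - D.st n) ⟨D.mem_O.mpr ⟨hn, ?_⟩, h1.hw, hn1, ?_, ?_⟩
    · show D.st w.1 + w.2 - D.st n < n.length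
      omega
    · intro c' h5 h6
      have h6' : D.st n < D.st c' := h6
      show D.st w.1 ≤ D.st c'
      by_contra hcon
      have := hn2 c' h5 (by omega)
      omega
    · show D.st n + (D.st w.1 + w.2 - D.st n) = D.st w.1 + w.2
      omega

theorem lk_codet {u u' w : List α × ℕ} (h : D.Lk u w) (h' : D.Lk u' w) : u = u' := by
  obtain ⟨hu1, hu2⟩ := D.mem_O.mp h.hu
  obtain ⟨hu1', hu2'⟩ := D.mem_O.mp h'.hu
  have h1 : D.st u.1 = D.st u'.1 := by
    by_contra hcon
    rcases Nat.lt_or_gt_of_ne hcon with h2 | h2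
    · have := h.next u'.1 hu1' h2
      have := h'.lt
      omega
    · have := h'.next u.1 hu1 h2
      have := h.lt
      omega
  have h2 := stinj hu1 hu1' h1
  have h3 : D.st u.1 + u.2 = D.st u'.1 + u'.2 := h.eq.trans h'.eq.symm
  apply Prod.ext h2
  omega


theorem hasOut_mono {a : List α} {ω ω' : ℕ} (h : HasOut D.F D.st a ω) (hle : ω' ≤ ω) :
    HasOut D.F D.st a ω' := by
  obtain ⟨c, hc, h1, h2⟩ := h
  exact ⟨c, hc, h1, by omega⟩

theorem hasIn_mono {a : List α} {ω ω' : ℕ} (h : HasIn D.F D.st a ω) (hle : ω' ≤ ω) :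
    HasIn D.F D.st a ω' := by
  obtain ⟨c, hc, h1, h2⟩ := h
  exact ⟨c, hc, h1, by omega⟩

theorem overlap_of_comp {u w : List α × ℕ} (h : D.Comp u w) : IsOverlap u.1 w.1 (om u w) := by
  obtain ⟨_, hu2⟩ := D.mem_O.mp h.hu
  obtain ⟨_, hw2⟩ := D.mem_O.mp h.hw
  have hlt := h.lt
  have hl := h.lenlt
  have e : om u w = u.1.length - u.2 + w.2 := rfl
  refine overlap_of_letters (by omega) (by omega) ?_
  intro m hm
  have := h.letters m (by omega)
  rwa [show u.2 - w.2 + m = u.1.length - om u w + m by omega] at this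

theorem cp_closed {u w : List α × ℕ} (h : D.CP u w) : ClosedP D.F D.st w.1 u.1 (om u w) := by
  obtain ⟨hc, hT, hH⟩ := h
  obtain ⟨hu1, hu2⟩ := D.mem_O.mp hc.hu
  obtain ⟨hw1, _⟩ := D.mem_O.mp hc.hw
  have hlt := hc.lt
  have e : om u w = u.1.length - u.2 + w.2 := rfl
  rcases D.hL.star u.1 hu1 w.1 hw1 (om u w) (by omega) (overlap_of_comp hc) with h | h | h
  · exact absurd h hT
  · exact absurd h hH
  · exact h

theorem closed_hasIn {b a s : List α} {ω : ℕ} (h : ClosedP D.F D.st b a ω) (hb : b ∈ D.F)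
    (h1 : D.st b < D.st s) (h2 : D.st s ≤ D.st a) : HasIn D.F D.st s ω := by
  obtain ⟨n, hn, hn1, hn2⟩ := exists_pred (D := D) hb h1
  have h3 := hn2 b hb h1
  obtain ⟨c, hc, hc1, hc2⟩ := h.2 n hn h3 (by omega)
  refine ⟨n, hn, hn1, ?_⟩
  have : D.st s ≤ D.st c := by
    by_contra hcon
    have := hn2 c hc (by omega)
    omega
  omega

theorem border_of_period {b : List α} {d : ℕ} (h0 : 0 < d) (h1 : d < b.length)
    (h : ∀ m, d + m < b.length → b[d + m]? = b[m]?) : ¬ Unbordered b := by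
  intro hU
  apply hU (b.length - d) (by omega) (by omega)
  rw [show b.length - (b.length - d) = d by omega]
  apply List.ext_getElem?
  intro m
  by_cases hm : m < b.length - d
  · rw [List.getElem?_take_of_lt hm, List.getElem?_drop]
    exact (h m (by omega)).symm
  · rw [List.getElem?_eq_none, List.getElem?_eq_none]
    · simp
      omega
    · simp
      omega

theorem period {u w : List α × ℕ} (h : D.Comp u w) (hst : D.st w.1 < D.st u.1)
    (hD : D.pos u < D.pos w + om u w) : ¬ Unbordered w.1 := by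
  obtain ⟨hu1, hu2⟩ := D.mem_O.mp h.hu
  obtain ⟨hw1, hw2⟩ := D.mem_O.mp h.hw
  have hlt := h.lt
  have hl := h.lenlt
  have hD' : D.st u.1 + u.2 < D.st w.1 + w.2 + (u.1.length - u.2 + w.2) := hD
  have hm := stmono hw1 hu1 hst
  refine border_of_period (d := D.st u.1 + u.2 - (D.st w.1 + w.2)) (by omega) (by omega) ?_
  intro m hm'
  have e1 := D.hL.at_ w.1 hw1 (D.st u.1 + u.2 - (D.st w.1 + w.2) + m) hm'
  have e2 := D.hL.at_ u.1 hu1 (u.2 - w.2 + m) (by omega)
  rw [← e1, ← h.letters m (by omega), ← e2]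
  congr 1
  omega

theorem no_self {a : List α} {i j : ℕ} (h : D.Comp (a, i) (a, j)) : ¬ Unbordered a := by
  have hlt : j < i := h.lt
  have hi : i < a.length := (D.mem_O.mp h.hu).2
  refine border_of_period (d := i - j) (by omega) (by omega) ?_
  intro m hm
  exact h.letters m hm

/-- `D.NP`: every closure pair is non-periodic -/
def NP (D : Setup α) : Prop := ∀ u w, D.CP u w → D.pos w + om u w ≤ D.pos u

theorem hasPeriod_of_cp {u w : List α × ℕ} (h : D.Comp u w) (hcl : D.st w.1 ≤ D.st u.1)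
    (hD : D.pos u < D.pos w + om u w) :
    HasPeriod w.1 (D.pos u - D.pos w) ∧ 0 < D.pos u - D.pos w ∧ D.pos u - D.pos w < om u w ∧
      u.1.length - om u w ≤ D.pos u - D.pos w ∧ w.1.length - om u w ≤ D.pos u - D.pos w := by
  obtain ⟨hu1, hu2⟩ := D.mem_O.mp h.hu
  obtain ⟨hw1, hw2⟩ := D.mem_O.mp h.hw
  have hlt := h.lt
  have hl := h.lenlt
  have hD' : D.st u.1 + u.2 < D.st w.1 + w.2 + (u.1.length - u.2 + w.2) := hD
  have e1 : D.pos u = D.st u.1 + u.2 := rfl
  have e2 : D.pos w = D.st w.1 + w.2 := rfl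
  have e3 : om u w = u.1.length - u.2 + w.2 := rfl
  rcases lt_or_eq_of_le hcl with hst | hst
  · have hm := stmono hw1 hu1 hst
    refine ⟨?_, by omega, by omega, by omega, by omega⟩
    intro m hm'
    rw [e1, e2] at hm' ⊢
    have e4 := D.hL.at_ w.1 hw1 (D.st u.1 + u.2 - (D.st w.1 + w.2) + m) hm'
    have e5 := D.hL.at_ u.1 hu1 (u.2 - w.2 + m) (by omega)
    rw [← e4, ← h.letters m (by omega), ← e5]
    congr 1
    omega
  · have hs : w.1 = u.1 := stinj hw1 hu1 hst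
    have hlen : w.1.length = u.1.length := by rw [hs]
    refine ⟨?_, by omega, by omega, by omega, by omega⟩
    intro m hm'
    rw [e1, e2] at hm' ⊢
    have e4 := h.letters m (by omega)
    rw [← hs] at e4
    rw [← e4]
    congr 1
    omega

theorem np_of_unbordered (hU : ∀ s ∈ D.F, Unbordered s) : D.NP := by
  intro u w hcp
  by_contra hcon
  have hcl := (cp_closed hcp).1
  obtain ⟨h1, h2, h3, _, _⟩ := hasPeriod_of_cp hcp.1 hcl (by omega)
  have hl := hcp.1.lenlt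
  have hlt := hcp.1.lt
  have hu2 := (D.mem_O.mp hcp.1.hu).2
  have e3 : om u w = u.1.length - u.2 + w.2 := rfl
  exact border_of_period h2 (by omega) h1 (hU _ (D.mem_O.mp hcp.1.hw).1)

/-- closure tail and head never sit in the wrong order at the same position of `G` -/
theorem lemmaL (hU : D.NP) {h c : List α × ℕ} (hh : D.IsHead h)
    (hc : D.IsTail c) (hpos : D.pos h = D.pos c) (hle : D.st h.1 ≤ D.st c.1) : False := by
  obtain ⟨p, hp⟩ := hh
  obtain ⟨q, hq⟩ := hc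
  have cl1 := cp_closed hp
  have cl2 := cp_closed hq
  have pp1 := hU p h hp
  have pp2 := hU c q hq
  obtain ⟨hc1, hT1, hH1⟩ := hp
  obtain ⟨hc2, hT2, hH2⟩ := hq
  obtain ⟨hP, hip⟩ := D.mem_O.mp hc1.hu
  obtain ⟨hH, hjh⟩ := D.mem_O.mp hc1.hw
  obtain ⟨hC, hic⟩ := D.mem_O.mp hc2.hu
  obtain ⟨hQ, hjq⟩ := D.mem_O.mp hc2.hw
  have lt1 := hc1.lt
  have lt2 := hc2.lt
  have ePos : D.st h.1 + h.2 = D.st c.1 + c.2 := hpos
  have eω1 : om p h = p.1.length - p.2 + h.2 := rfl
  have eω2 : om c q = c.1.length - c.2 + q.2 := rfl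
  have pp1' : D.st h.1 + h.2 + om p h ≤ D.st p.1 + p.2 := pp1
  have pp2' : D.st q.1 + q.2 + om c q ≤ D.st c.1 + c.2 := pp2
  rcases lt_trichotomy (D.st p.1) (D.st c.1) with hB | hB | hB
  · exact hT1 ⟨c.1, hC, hB, by omega⟩
  · have e1 : p.1 = c.1 := stinj hP hC hB
    have elen : p.1.length = c.1.length := by rw [e1]
    rcases lt_trichotomy (D.st h.1) (D.st q.1) with hB' | hB' | hB'
    · exact hH2 ⟨h.1, hH, hB', by omega⟩
    · omega
    · have h3 : HasIn D.F D.st h.1 (om c q) := closed_hasIn cl2 hQ hB' hle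
      have h4 : om c q < om p h := by
        by_contra hcon
        exact hH1 (hasIn_mono h3 (by omega))
      omega
  · rcases lt_trichotomy (D.st h.1) (D.st q.1) with hB' | hB' | hB'
    · exact hH2 ⟨h.1, hH, hB', by omega⟩
    · have h3 : HasOut D.F D.st c.1 (om p h) := cl1.2 c.1 hC hle hB
      have h4 : om p h < om c q := by
        by_contra hcon
        exact hT2 (hasOut_mono h3 (by omega))
      omega
    · have h3 : HasOut D.F D.st c.1 (om p h) := cl1.2 c.1 hC hle hB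
      have h4 : om p h < om c q := by
        by_contra hcon
        exact hT2 (hasOut_mono h3 (by omega))
      have h5 : HasIn D.F D.st h.1 (om c q) := closed_hasIn cl2 hQ hB' hle
      have h6 : om c q < om p h := by
        by_contra hcon
        exact hH1 (hasIn_mono h5 (by omega))
      omega


variable (D)

/-- occurrences at or before a closure tail at the same position of `G` -/
def ColT (ρ : List α × ℕ) : Prop :=
  ∃ ρ' ∈ D.O, D.IsTail ρ' ∧ D.pos ρ' = D.pos ρ ∧ D.st ρ.1 ≤ D.st ρ'.1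

open Classical in
/-- tail side -/
noncomputable def AT : Finset (List α × ℕ) := D.O.filter D.ColT

open Classical in
/-- head side -/
noncomputable def AH : Finset (List α × ℕ) := D.O.filter fun ρ => ¬ D.ColT ρ

/-- a link inside `A` -/
def gg (A : Finset (List α × ℕ)) (u w : List α × ℕ) : Prop := D.Lk u w ∧ u ∈ A ∧ w ∈ A

open Classical in
/-- occurrences with no link in -/
noncomputable def TrueF : Finset (List α × ℕ) := D.O.filter fun a => ∀ u, ¬ D.Lk u a

open Classical in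
noncomputable def StartsT : Finset (List α × ℕ) := D.AT.filter fun a => ∀ u, ¬ D.Lk u a

open Classical in
noncomputable def StartsH : Finset (List α × ℕ) := D.AH.filter fun a => ∀ u ∈ D.AH, ¬ D.Lk u a

open Classical in
/-- the cut: a link from the tail side into the head side -/
noncomputable def Cut : Finset (List α × ℕ) := D.AH.filter fun y => ∃ c ∈ D.AT, D.Lk c y

open Classical in
/-- no predecessor in `T` inside `A` -/
noncomputable def Firsts (A : Finset (List α × ℕ)) : Finset (List α × ℕ) :=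
  A.filter fun w => ∀ u, ¬ D.Prev A u w

/-- a walk inside `A` from `a` that gets stuck at `e` with predecessor `u`. -/
def EndBad (A : Finset (List α × ℕ)) (a : List α × ℕ) (t : List ((List α × ℕ) × (List α × ℕ)))
    (e u : List α × ℕ) : Prop :=
  Path (D.Prev A) (D.gg A) a t e ∧ D.Prev A u e ∧ ∀ b, ¬ D.gg A u b

open Classical in
noncomputable def BadT : Finset (List α × ℕ) :=
  D.StartsT.filter fun a => ∃ t e u, D.EndBad D.AT a t e u

open Classical in
noncomputable def BetaT : Finset (List α × ℕ) :=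
  D.Cut.filter fun y => ∃ a t e u, a ∈ D.StartsT ∧ D.EndBad D.AT a t e u ∧ D.Lk u y

open Classical in
noncomputable def BetaH : Finset (List α × ℕ) :=
  D.Cut.filter fun y => ∃ t e u, D.EndBad D.AH y t e u

variable {D}

theorem mem_AT {ρ : List α × ℕ} : ρ ∈ D.AT ↔ ρ ∈ D.O ∧ D.ColT ρ := by
  simp [AT]

theorem mem_AH {ρ : List α × ℕ} : ρ ∈ D.AH ↔ ρ ∈ D.O ∧ ¬ D.ColT ρ := by
  simp [AH]

theorem mem_TrueF {a : List α × ℕ} : a ∈ D.TrueF ↔ a ∈ D.O ∧ ∀ u, ¬ D.Lk u a := by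
  unfold TrueF
  simp only [Finset.mem_filter]

theorem mem_StartsT {a : List α × ℕ} : a ∈ D.StartsT ↔ a ∈ D.AT ∧ ∀ u, ¬ D.Lk u a := by
  unfold StartsT
  simp only [Finset.mem_filter]

theorem mem_StartsH {a : List α × ℕ} : a ∈ D.StartsH ↔ a ∈ D.AH ∧ ∀ u ∈ D.AH, ¬ D.Lk u a := by
  unfold StartsH
  simp only [Finset.mem_filter]

theorem mem_Cut {y : List α × ℕ} : y ∈ D.Cut ↔ y ∈ D.AH ∧ ∃ c ∈ D.AT, D.Lk c y := by
  unfold Cut
  simp only [Finset.mem_filter]

theorem mem_Firsts {A : Finset (List α × ℕ)} {w : List α × ℕ} :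
    w ∈ D.Firsts A ↔ w ∈ A ∧ ∀ u, ¬ D.Prev A u w := by
  unfold Firsts
  simp only [Finset.mem_filter]

theorem mem_BadT {a : List α × ℕ} :
    a ∈ D.BadT ↔ a ∈ D.StartsT ∧ ∃ t e u, D.EndBad D.AT a t e u := by
  unfold BadT
  simp only [Finset.mem_filter]

theorem mem_BetaT {y : List α × ℕ} :
    y ∈ D.BetaT ↔ y ∈ D.Cut ∧ ∃ a t e u, a ∈ D.StartsT ∧ D.EndBad D.AT a t e u ∧ D.Lk u y := by
  unfold BetaT
  simp only [Finset.mem_filter]

theorem mem_BetaH {y : List α × ℕ} :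
    y ∈ D.BetaH ↔ y ∈ D.Cut ∧ ∃ t e u, D.EndBad D.AH y t e u := by
  unfold BetaH
  simp only [Finset.mem_filter]

theorem AT_sub : D.AT ⊆ D.O := fun _ h => (mem_AT.mp h).1

theorem AH_sub : D.AH ⊆ D.O := fun _ h => (mem_AH.mp h).1

theorem AT_not_head (hU : D.NP) {ρ : List α × ℕ} (h : ρ ∈ D.AT) :
    ¬ D.IsHead ρ := by
  obtain ⟨_, ρ', _, h2, h3, h4⟩ := mem_AT.mp h
  exact fun hh => lemmaL hU hh h2 h3.symm h4

theorem AH_not_tail {ρ : List α × ℕ} (h : ρ ∈ D.AH) : ¬ D.IsTail ρ := by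
  obtain ⟨h1, h2⟩ := mem_AH.mp h
  exact fun hh => h2 ⟨ρ, h1, hh, rfl, le_refl _⟩

theorem lk_down {u w : List α × ℕ} (h : D.Lk u w) (hw : w ∈ D.AT) : u ∈ D.AT := by
  obtain ⟨_, ρ', h1, h2, h3, h4⟩ := mem_AT.mp hw
  have := h.lt
  exact mem_AT.mpr ⟨h.hu, ρ', h1, h2, h3.trans h.eq.symm, by omega⟩

theorem lk_up {u w : List α × ℕ} (h : D.Lk u w) (hu : u ∈ D.AH) : w ∈ D.AH := by
  refine mem_AH.mpr ⟨h.hw, fun hc => ?_⟩
  exact (mem_AH.mp hu).2 (mem_AT.mp (lk_down h (mem_AT.mpr ⟨h.hw, hc⟩))).2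

theorem prev_comp {A : Finset (List α × ℕ)} (hA : A ⊆ D.O) {u w : List α × ℕ}
    (h : D.Prev A u w) : D.Comp u w :=
  comp_of_at D.hT (hA h.hu) (hA h.hw) h.eq h.lt

theorem ttinj {s t : List α} (hs : s ∈ D.F) (ht : t ∈ D.F) (h : D.tt s = D.tt t) : s = t :=
  lay_inj D.hsf D.hT hs ht h

theorem prev_codet {A : Finset (List α × ℕ)} (hA : A ⊆ D.O) {u w w' : List α × ℕ}
    (h : D.Prev A u w) (h' : D.Prev A u w') : w = w' := by
  have h1 := h.lt
  have h2 := h'.lt
  have e1 : D.cel w = D.cel w' := h.eq.symm.trans h'.eq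
  have ht : D.tt w.1 = D.tt w'.1 := by
    by_contra hcon
    rcases Nat.lt_or_gt_of_ne hcon with h3 | h3
    · have := h'.max w h.hw e1 h3
      omega
    · have := h.max w' h'.hw e1.symm h3
      omega
  have hs := ttinj (D.mem_O.mp (hA h.hw)).1 (D.mem_O.mp (hA h'.hw)).1 ht
  have e2 : D.tt w.1 + w.2 = D.tt w'.1 + w'.2 := e1
  apply Prod.ext hs
  omega

theorem exists_prev {A : Finset (List α × ℕ)} {v w : List α × ℕ} (hv : v ∈ A) (hw : w ∈ A)
    (he : D.cel v = D.cel w) (hlt : D.tt v.1 < D.tt w.1) : ∃ u, D.Prev A u w := by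
  classical
  have hne : (A.filter fun x => D.cel x = D.cel w ∧ D.tt x.1 < D.tt w.1).Nonempty :=
    ⟨v, Finset.mem_filter.mpr ⟨hv, he, hlt⟩⟩
  obtain ⟨u, hu, hmax⟩ := Finset.exists_max_image _ (fun x => D.tt x.1) hne
  obtain ⟨hu1, hu2, hu3⟩ := Finset.mem_filter.mp hu
  exact ⟨u, hu1, hw, hu2, hu3, fun x h1 h2 h3 => hmax x (Finset.mem_filter.mpr ⟨h1, h2, h3⟩)⟩

theorem firsts_card {A : Finset (List α × ℕ)} (hA : A ⊆ D.O) :
    (D.Firsts A).card ≤ D.T.length := by
  have := card_le_of_rel (P := D.Firsts A) (Q := Finset.range D.T.length)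
    (fun φ c => D.cel φ = c) ?_ ?_
  · simpa using this
  · intro φ hφ
    obtain ⟨h1, h2⟩ := D.mem_O.mp (hA (mem_Firsts.mp hφ).1)
    exact ⟨D.cel φ, Finset.mem_range.mpr ((D.hT _ h1).lt h2), rfl⟩
  · intro a ha a' ha' b _ h1 h2
    obtain ⟨ha1, ha2⟩ := mem_Firsts.mp ha
    obtain ⟨ha1', ha2'⟩ := mem_Firsts.mp ha'
    have e : D.cel a = D.cel a' := h1.trans h2.symm
    have ht : D.tt a.1 = D.tt a'.1 := by
      by_contra hcon
      rcases Nat.lt_or_gt_of_ne hcon with h3 | h3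
      · obtain ⟨u, hu⟩ := exists_prev ha1 ha1' e h3
        exact ha2' u hu
      · obtain ⟨u, hu⟩ := exists_prev ha1' ha1 e.symm h3
        exact ha2 u hu
    have hs := ttinj (D.mem_O.mp (hA ha1)).1 (D.mem_O.mp (hA ha1')).1 ht
    have e2 : D.tt a.1 + a.2 = D.tt a'.1 + a'.2 := e
    apply Prod.ext hs
    omega

theorem path_mem {A : Finset (List α × ℕ)} {a e : List α × ℕ}
    {t : List ((List α × ℕ) × (List α × ℕ))} (ha : a ∈ A)
    (hP : Path (D.Prev A) (D.gg A) a t e) : e ∈ A := by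
  induction hP with
  | nil a => exact ha
  | cons _ hg _ ih => exact ih hg.2.2

theorem peak {a ue : List α × ℕ} {t : List ((List α × ℕ) × (List α × ℕ))}
    (hV : Valid D.Comp D.Lk a t ue) (hG : GoodL (fun ρ => ¬ D.IsTail ρ) (fun ρ => ¬ D.IsHead ρ) a t ue)
    (h1 : ∀ u, ¬ D.Lk u a) (h2 : ∀ w', ¬ D.Lk ue w') : False :=
  peak_false peakData (fun u w hn h1 h2 h3 => hn ⟨w, h1, h2, h3⟩)
    (fun u w hn h1 h2 h3 => hn ⟨u, h1, h2, h3⟩) _ a t ue rfl hV hG h1 h2

theorem free_of_bad_H {u : List α × ℕ} (hu : u ∈ D.AH) (h : ∀ b, ¬ D.gg D.AH u b) :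
    ∀ w', ¬ D.Lk u w' := fun w' hl => h w' ⟨hl, hu, lk_up hl hu⟩

/-- the walk from a true start on the tail side cannot end at a free occurrence -/
theorem exists_link_T (hU : D.NP) {a e u : List α × ℕ}
    {t : List ((List α × ℕ) × (List α × ℕ))} (ha : a ∈ D.StartsT)
    (hE : D.EndBad D.AT a t e u) : ∃ y, D.Lk u y := by
  by_contra hcon
  push Not at hcon
  obtain ⟨hP, h0, _⟩ := hE
  refine peak (valid_of_path (fun _ _ h => prev_comp AT_sub h) (fun _ _ h => h.1) hP h0)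
    (good_end (fun _ _ h => AT_not_head hU h.hw) hP h0) (mem_StartsT.mp ha).2 hcon

theorem side_T : D.StartsT.card ≤ (D.Firsts D.AT).card + (D.StartsT ∩ D.BadT).card := by
  refine side_count (p := D.Prev D.AT) (g := D.gg D.AT) D.AT D.StartsT (D.Firsts D.AT) D.BadT
    (fun u u' w h h' => lk_codet h.1 h'.1) (fun u w w' h h' => prev_codet AT_sub h h')
    (fun a _ u b _ hg => hg.2.2) ?_ ?_ (fun a t e ha hP => path_mem ha hP) ?_
  · intro a ha
    obtain ⟨h1, h2⟩ := mem_StartsT.mp ha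
    exact ⟨h1, fun u hu => h2 u hu.1⟩
  · intro w hw hf
    exact mem_Firsts.mpr ⟨hw, hf⟩
  · intro a t e u ha hP hp hf
    exact mem_BadT.mpr ⟨ha, t, e, u, hP, hp, hf⟩

theorem bad_le (hU : D.NP) :
    (D.StartsT ∩ D.BadT).card ≤ D.BetaT.card := by
  refine card_le_of_rel (fun a y => ∃ t e u, D.EndBad D.AT a t e u ∧ D.Lk u y) ?_ ?_
  · intro a ha
    obtain ⟨ha1, ha2⟩ := Finset.mem_inter.mp ha
    obtain ⟨_, t, e, u, hE⟩ := mem_BadT.mp ha2
    obtain ⟨y, hy⟩ := exists_link_T hU ha1 hE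
    have huT : u ∈ D.AT := hE.2.1.hu
    have hyH : y ∈ D.AH := by
      refine mem_AH.mpr ⟨hy.hw, fun hc => ?_⟩
      exact hE.2.2 y ⟨hy, huT, mem_AT.mpr ⟨hy.hw, hc⟩⟩
    refine ⟨y, mem_BetaT.mpr ⟨mem_Cut.mpr ⟨hyH, u, huT, hy⟩, a, t, e, u, ha1, hE, hy⟩,
      t, e, u, hE, hy⟩
  · intro a ha a' ha' y _ ⟨t, e, u, hE, hy⟩ ⟨t', e', u', hE', hy'⟩
    have hu : u = u' := lk_codet hy hy'
    subst hu
    have he : e = e' := prev_codet AT_sub hE.2.1 hE'.2.1
    subst he
    obtain ⟨ha1, _⟩ := Finset.mem_inter.mp ha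
    obtain ⟨ha1', _⟩ := Finset.mem_inter.mp ha'
    exact path_inj (p := D.Prev D.AT) (g := D.gg D.AT) (fun u u' w h h' => lk_codet h.1 h'.1)
      (fun u w w' h h' => prev_codet AT_sub h h') _ a a' e t t' rfl hE.1 hE'.1
      (fun v hv => (mem_StartsT.mp ha1).2 v hv.1)
      (fun v hv => (mem_StartsT.mp ha1').2 v hv.1)

theorem side_H :
    D.StartsH.card ≤ (D.Firsts D.AH).card + (D.StartsH ∩ D.BetaH).card := by
  refine side_count (p := D.Prev D.AH) (g := D.gg D.AH) D.AH D.StartsH (D.Firsts D.AH) D.BetaH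
    (fun u u' w h h' => lk_codet h.1 h'.1) (fun u w w' h h' => prev_codet AH_sub h h')
    (fun a _ u b _ hg => hg.2.2) ?_ ?_ (fun a t e ha hP => path_mem ha hP) ?_
  · intro a ha
    obtain ⟨h1, h2⟩ := mem_StartsH.mp ha
    exact ⟨h1, fun u hu => h2 u hu.2.1 hu.1⟩
  · intro w hw hf
    exact mem_Firsts.mpr ⟨hw, hf⟩
  · intro a t e u ha hP hp hf
    obtain ⟨ha1, ha2⟩ := mem_StartsH.mp ha
    have huH : u ∈ D.AH := hp.hu
    have hfree := free_of_bad_H huH hf
    have hpred : ∃ c, D.Lk c a := by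
      by_contra hcon
      push Not at hcon
      refine peak (valid_of_path (fun _ _ h => prev_comp AH_sub h) (fun _ _ h => h.1) hP hp)
        (allNT_good _ _ _ (allNT_path (fun _ _ h => AH_not_tail h.hu) hP hp)) hcon hfree
    obtain ⟨c, hc⟩ := hpred
    have hcT : c ∈ D.AT := by
      refine mem_AT.mpr ⟨hc.hu, ?_⟩
      by_contra hcon
      exact ha2 c (mem_AH.mpr ⟨hc.hu, hcon⟩) hc
    exact mem_BetaH.mpr ⟨mem_Cut.mpr ⟨ha1, c, hcT, hc⟩, t, e, u, hP, hp, hf⟩

theorem beta_disj (hU : D.NP) : Disjoint D.BetaT D.BetaH := by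
  rw [Finset.disjoint_left]
  intro y h1 h2
  obtain ⟨_, a, t, e, u, ha, hE, hy⟩ := mem_BetaT.mp h1
  obtain ⟨_, t₂, e₂, u₂, hP₂, hp₂, hf₂⟩ := mem_BetaH.mp h2
  obtain ⟨hP, hp, _⟩ := hE
  have hV₂ : Valid D.Comp D.Lk y t₂ u₂ :=
    valid_of_path (fun _ _ h => prev_comp AH_sub h) (fun _ _ h => h.1) hP₂ hp₂
  have hG₂ : GoodL (fun ρ => ¬ D.IsTail ρ) (fun ρ => ¬ D.IsHead ρ) y t₂ u₂ :=
    allNT_good _ _ _ (allNT_path (fun _ _ h => AH_not_tail h.hu) hP₂ hp₂)
  exact peak (valid_concat (fun _ _ h => prev_comp AT_sub h) (fun _ _ h => h.1) hP hp hy hV₂)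
    (good_concat (fun _ _ h => AT_not_head hU h.hw) hP hp hG₂)
    (mem_StartsT.mp ha).2 (free_of_bad_H hp₂.hu hf₂)

theorem beta_le (hU : D.NP) : D.BetaT.card + D.BetaH.card ≤ D.Cut.card := by
  rw [← Finset.card_union_of_disjoint (beta_disj hU)]
  refine Finset.card_le_card ?_
  intro y hy
  rcases Finset.mem_union.mp hy with h | h
  · exact (mem_BetaT.mp h).1
  · exact (mem_BetaH.mp h).1

theorem trueF_split : D.TrueF.card + D.Cut.card ≤ D.StartsT.card + D.StartsH.card := by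
  have hdisj : Disjoint D.TrueF D.Cut := by
    rw [Finset.disjoint_left]
    intro y h1 h2
    obtain ⟨_, c, _, hc⟩ := mem_Cut.mp h2
    exact (mem_TrueF.mp h1).2 c hc
  rw [← Finset.card_union_of_disjoint hdisj]
  refine le_trans (Finset.card_le_card ?_) (Finset.card_union_le _ _)
  intro y hy
  rcases Finset.mem_union.mp hy with h | h
  · obtain ⟨h1, h2⟩ := mem_TrueF.mp h
    by_cases hc : D.ColT y
    · exact Finset.mem_union_left _ (mem_StartsT.mpr ⟨mem_AT.mpr ⟨h1, hc⟩, h2⟩)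
    · exact Finset.mem_union_right _
        (mem_StartsH.mpr ⟨mem_AH.mpr ⟨h1, hc⟩, fun u _ => h2 u⟩)
  · obtain ⟨h1, c, hcT, hc⟩ := mem_Cut.mp h
    refine Finset.mem_union_right _ (mem_StartsH.mpr ⟨h1, fun u hu hl => ?_⟩)
    have : u = c := lk_codet hl hc
    subst this
    exact (mem_AH.mp hu).2 (mem_AT.mp hcT).2

theorem G_le : D.G.length ≤ D.TrueF.card := by
  classical
  have := card_le_of_rel (P := Finset.range D.G.length) (Q := D.TrueF)
    (fun p φ => D.pos φ = p) ?_ ?_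
  · simpa using this
  · intro p hp
    have hp' := Finset.mem_range.mp hp
    obtain ⟨s0, hs0, h1, h2⟩ := D.hL.cover p hp'
    have hne : (D.F.filter fun s => D.st s ≤ p ∧ p < D.st s + s.length).Nonempty :=
      ⟨s0, Finset.mem_filter.mpr ⟨hs0, h1, h2⟩⟩
    obtain ⟨s, hs, hmin⟩ := Finset.exists_min_image _ D.st hne
    obtain ⟨hs1, hs2, hs3⟩ := Finset.mem_filter.mp hs
    refine ⟨(s, p - D.st s), ?_, ?_⟩
    · refine mem_TrueF.mpr ⟨D.mem_O.mpr ⟨hs1, ?_⟩, ?_⟩
      · show p - D.st s < s.length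
        omega
      · intro u hu
        have e1 : D.st u.1 + u.2 = D.st s + (p - D.st s) := hu.eq
        have hu1 := D.mem_O.mp hu.hu
        have h3 := hmin u.1 (Finset.mem_filter.mpr ⟨hu1.1, by omega, by omega⟩)
        have h4 : D.st u.1 < D.st s := hu.lt
        omega
    · show D.st s + (p - D.st s) = p
      omega
  · intro a _ a' _ b _ h1 h2
    exact h1.symm.trans h2

/-- **Main bound.** -/
theorem main_np (hU : D.NP) : D.G.length ≤ 2 * D.T.length := by
  have h1 := G_le (D := D)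
  have h2 := trueF_split (D := D)
  have h3 := side_T (D := D)
  have h4 := bad_le hU
  have h5 := side_H (D := D)
  have h6 : (D.StartsH ∩ D.BetaH).card ≤ D.BetaH.card :=
    Finset.card_le_card Finset.inter_subset_right
  have h7 := beta_le hU
  have h8 := firsts_card (D := D) AT_sub
  have h9 := firsts_card (D := D) AH_sub
  omega

theorem main (hU : ∀ s ∈ D.F, Unbordered s) : D.G.length ≤ 2 * D.T.length :=
  main_np (np_of_unbordered hU)

end Setup

end Vale.Agent.Lib.P333G
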