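import Mathlib

/-!
# Definitions for the greedy superstring algorithm
-/

namespace Vale.Agent.Lib.P333G

variable {α : Type*}

/-- `k` is the length of a suffix-prefix overlap of `x` and `y`: the last `k` letters of `x`
are the first `k` letters of `y`. -/
def IsOverlap (x y : List α) (k : ℕ) : Prop :=
  k ≤ x.length ∧ k ≤ y.length ∧ x.drop (x.length - k) = y.take k

/-- `GreedyRun F G`: starting from the family `F`, the greedy algorithm can end with the single
string `G`. A step picks two distinct members `x`, `y` and an overlap `k` of `x` and `y` that is
longest among all overlaps of all ordered pairs of distinct members (ties arbitrary), and replaces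
`x`, `y` by their merge `x ++ y.drop k`. -/
inductive GreedyRun [DecidableEq α] : Finset (List α) → List α → Prop
  | done (s : List α) : GreedyRun {s} s
  | step {F : Finset (List α)} {x y : List α} {k : ℕ} {G : List α} :
      x ∈ F → y ∈ F → x ≠ y → IsOverlap x y k →
      (∀ x' ∈ F, ∀ y' ∈ F, x' ≠ y' → ∀ k', IsOverlap x' y' k' → k' ≤ k) →
      GreedyRun (insert (x ++ y.drop k) ((F.erase x).erase y)) G → GreedyRun F G

/-- The first phase of the greedy algorithm: discard every string that is a proper substring of
another member. -/
def reduce [DecidableEq α] (S : Finset (List α)) : Finset (List α) :=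
  S.filter (fun s => ∀ t ∈ S, s <:+: t → s = t)

/-- `s` is unbordered: no nonempty proper prefix of `s` is also a suffix of `s`. -/
def Unbordered (s : List α) : Prop :=
  ∀ k, 0 < k → k < s.length → s.take k ≠ s.drop (s.length - k)

/-- `d` is a period of `y`: letters at distance `d` agree. -/
def HasPeriod (y : List α) (d : ℕ) : Prop :=
  ∀ m, d + m < y.length → y[d + m]? = y[m]?

end Vale.Agent.Lib.P333G
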