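import Vale.Agent.Lib.P333G.Defs

/-!
# From a greedy run to a layout of the strings in the output
-/

namespace Vale.Agent.Lib.P333G

variable {α : Type*}

/-- `Z` has the letters of `s` starting at position `p`. -/
def At (Z s : List α) (p : ℕ) : Prop := ∀ k, k < s.length → Z[p + k]? = s[k]?

/-- no member is a proper substring of another -/
def SF (F : Finset (List α)) : Prop := ∀ s ∈ F, ∀ t ∈ F, s <:+: t → s = t

theorem At.lt {Z s : List α} {p k : ℕ} (h : At Z s p) (hk : k < s.length) : p + k < Z.length := by
  have h1 := h k hk
  have h2 : s[k]? = some s[k] := List.getElem?_eq_getElem hk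
  rw [h2] at h1
  by_contra hc
  have : Z[p + k]? = none := List.getElem?_eq_none (by omega)
  rw [this] at h1
  exact absurd h1 (by simp)

theorem infix_of_at {Z s t : List α} {P Q : ℕ} (ht : At Z t P) (hs : At Z s Q)
    (h1 : P ≤ Q) (h2 : Q + s.length ≤ P + t.length) : s <:+: t := by
  have hEq : s = (t.drop (Q - P)).take s.length := by
    apply List.ext_getElem?
    intro k
    by_cases hk : k < s.length
    · rw [List.getElem?_take_of_lt hk, List.getElem?_drop, ← hs k hk, ← ht (Q - P + k) (by omega)]
      congr 1
      omega
    · rw [List.getElem?_eq_none (by omega), List.getElem?_eq_none]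
      simp
      omega
  rw [hEq]
  exact (List.take_prefix _ _).isInfix.trans (List.drop_suffix _ _).isInfix

theorem overlap_letters {x y : List α} {k m : ℕ} (h : IsOverlap x y k) (hm : m < k) :
    x[x.length - k + m]? = y[m]? := by
  have h3 := congrArg (fun l => l[m]?) h.2.2
  simp only [List.getElem?_drop, List.getElem?_take_of_lt hm] at h3
  exact h3

theorem overlap_of_letters {x y : List α} {k : ℕ} (h1 : k ≤ x.length) (h2 : k ≤ y.length)
    (h : ∀ m, m < k → x[x.length - k + m]? = y[m]?) : IsOverlap x y k := by
  refine ⟨h1, h2, ?_⟩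
  apply List.ext_getElem?
  intro m
  by_cases hm : m < k
  · rw [List.getElem?_drop, List.getElem?_take_of_lt hm]
    exact h m hm
  · rw [List.getElem?_eq_none, List.getElem?_eq_none]
    · simp
      omega
    · simp
      omega

theorem At.trans {Z M s : List α} {p q : ℕ} (h1 : At Z M p) (h2 : At M s q)
    (hle : q + s.length ≤ M.length) : At Z s (p + q) := by
  intro k hk
  rw [← h2 k hk, ← h1 (q + k) (by omega)]
  congr 1
  omega

theorem at_of_append (A u B : List α) : At (A ++ u ++ B) u A.length := by
  intro k hk
  rw [List.append_assoc, List.getElem?_append_right (by omega),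
    List.getElem?_append_left (by simpa using hk)]
  congr 1
  omega

section Step

theorem overlap_lt_left {F : Finset (List α)} (hF : SF F) {x y : List α} {k : ℕ}
    (hx : x ∈ F) (hy : y ∈ F) (hne : x ≠ y) (h : IsOverlap x y k) : k < x.length := by
  by_contra hc
  have hk : k = x.length := by have := h.1; omega
  subst hk
  have h3 := h.2.2
  simp only [Nat.sub_self, List.drop_zero] at h3
  have : x <+: y := ⟨y.drop x.length, by
    conv_rhs => rw [← List.take_append_drop x.length y]
    rw [← h3]⟩
  exact hne (hF x hx y hy this.isInfix)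

theorem overlap_lt_right {F : Finset (List α)} (hF : SF F) {x y : List α} {k : ℕ}
    (hx : x ∈ F) (hy : y ∈ F) (hne : x ≠ y) (h : IsOverlap x y k) : k < y.length := by
  by_contra hc
  have hk : k = y.length := by have := h.2.1; omega
  subst hk
  have h3 := h.2.2
  rw [List.take_length] at h3
  have : y <:+ x := by
    rw [← h3]
    exact List.drop_suffix _ _
  exact hne (hF y hy x hx this.isInfix).symm

theorem at_merge_left (x y : List α) (k : ℕ) : At (x ++ y.drop k) x 0 := by
  intro j hj
  rw [List.getElem?_append_left (by omega)]
  simp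

theorem at_merge_right {x y : List α} {k : ℕ} (h : IsOverlap x y k) :
    At (x ++ y.drop k) y (x.length - k) := by
  intro j hj
  have hk := h.1
  by_cases hjk : j < k
  · rw [List.getElem?_append_left (by omega)]
    exact overlap_letters h hjk
  · rw [List.getElem?_append_right (by omega), List.getElem?_drop]
    congr 1
    omega

theorem merge_length {x y : List α} {k : ℕ} (h : IsOverlap x y k) :
    (x ++ y.drop k).length + k = x.length + y.length := by
  have := h.2.1
  simp
  omega

theorem sf_merge [DecidableEq α] {F : Finset (List α)} (hF : SF F) {x y : List α} {k : ℕ}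
    (hx : x ∈ F) (hy : y ∈ F) (hne : x ≠ y) (h : IsOverlap x y k)
    (hmax : ∀ x' ∈ F, ∀ y' ∈ F, x' ≠ y' → ∀ k', IsOverlap x' y' k' → k' ≤ k) :
    SF (insert (x ++ y.drop k) ((F.erase x).erase y)) := by
  have hlen := merge_length h
  have hk1 := overlap_lt_left hF hx hy hne h
  have hk2 := overlap_lt_right hF hx hy hne h
  have hAx := at_merge_left x y k
  have hAy := at_merge_right h
  intro u hu v hv huv
  rw [Finset.mem_insert, Finset.mem_erase, Finset.mem_erase] at hu hv
  rcases hu with rfl | ⟨huy, hux, huF⟩
  · rcases hv with rfl | ⟨hvy, hvx, hvF⟩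
    · rfl
    · have : x <:+: v := (List.prefix_append x (y.drop k)).isInfix.trans huv
      exact absurd (hF x hx v hvF this).symm hvx
  · rcases hv with rfl | ⟨hvy, hvx, hvF⟩
    · exfalso
      obtain ⟨A, B, hAB⟩ := huv
      have hAu : At (x ++ y.drop k) u A.length := by
        rw [← hAB]
        exact at_of_append A u B
      have hq : A.length + u.length ≤ (x ++ y.drop k).length := by
        rw [← hAB]
        simp
      by_cases h1 : A.length + u.length ≤ x.length
      · exact hux (hF u huF x hx (infix_of_at hAx hAu (by omega) (by omega)))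
      · by_cases h2 : x.length - k ≤ A.length
        · exact huy (hF u huF y hy (infix_of_at hAy hAu h2 (by omega)))
        · have hov : IsOverlap x u (x.length - A.length) := by
            refine overlap_of_letters (by omega) (by omega) ?_
            intro m hm
            have hm2 : A.length + m < x.length := by omega
            have e1 := hAu m (by omega)
            rw [List.getElem?_append_left hm2] at e1
            rw [← e1]
            congr 1
            omega
          have := hmax x hx u huF (Ne.symm hux) _ hov
          omega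
    · exact hF u huF v hvF huv

end Step

/-- tail of `a` is already used at level `ω` -/
def HasOut (F : Finset (List α)) (st : List α → ℕ) (a : List α) (ω : ℕ) : Prop :=
  ∃ c ∈ F, st a < st c ∧ st c + ω ≤ st a + a.length

/-- head of `b` is already used at level `ω` -/
def HasIn (F : Finset (List α)) (st : List α → ℕ) (b : List α) (ω : ℕ) : Prop :=
  ∃ c ∈ F, st c < st b ∧ st b + ω ≤ st c + c.length

/-- `b` comes before (or is) `a` and they are joined by links of weight at least `ω` -/
def ClosedP (F : Finset (List α)) (st : List α → ℕ) (b a : List α) (ω : ℕ) : Prop :=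
  st b ≤ st a ∧ ∀ s ∈ F, st b ≤ st s → st s < st a → HasOut F st s ω

/-- layout of the family in the output with the greedy property -/
structure IsLayout (F : Finset (List α)) (G : List α) (st : List α → ℕ) : Prop where
  at_ : ∀ s ∈ F, At G s (st s)
  cover : ∀ p, p < G.length → ∃ s ∈ F, st s ≤ p ∧ p < st s + s.length
  star : ∀ a ∈ F, ∀ b ∈ F, ∀ ω, 1 ≤ ω → IsOverlap a b ω →
    HasOut F st a ω ∨ HasIn F st b ω ∨ ClosedP F st b a ω

variable [DecidableEq α]

theorem layout_step {F : Finset (List α)} (hF : SF F) {x y : List α} {k : ℕ} {G : List α}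
    (hx : x ∈ F) (hy : y ∈ F) (hne : x ≠ y) (h : IsOverlap x y k)
    (hmax : ∀ x' ∈ F, ∀ y' ∈ F, x' ≠ y' → ∀ k', IsOverlap x' y' k' → k' ≤ k)
    (st' : List α → ℕ) (hL : IsLayout (insert (x ++ y.drop k) ((F.erase x).erase y)) G st') :
    ∃ st, IsLayout F G st := by
  classical
  set M := x ++ y.drop k with hMdef
  set F' := insert M ((F.erase x).erase y) with hF'def
  have hF' : SF F' := sf_merge hF hx hy hne h hmax
  have hlen : M.length + k = x.length + y.length := merge_length h
  have hk1 := overlap_lt_left hF hx hy hne h
  have hk2 := overlap_lt_right hF hx hy hne h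
  have hAx : At M x 0 := at_merge_left x y k
  have hAy : At M y (x.length - k) := at_merge_right h
  have hMF' : M ∈ F' := Finset.mem_insert_self _ _
  have hmemF' : ∀ z ∈ F, z ≠ x → z ≠ y → z ∈ F' := by
    intro z hz hzx hzy
    exact Finset.mem_insert_of_mem (Finset.mem_erase.mpr ⟨hzy, Finset.mem_erase.mpr ⟨hzx, hz⟩⟩)
  have hmemF : ∀ z ∈ F', z ≠ M → z ∈ F ∧ z ≠ x ∧ z ≠ y := by
    intro z hz hzM
    rcases Finset.mem_insert.mp hz with h1 | h1
    · exact absurd h1 hzM
    · obtain ⟨h2, h3⟩ := Finset.mem_erase.mp h1
      obtain ⟨h4, h5⟩ := Finset.mem_erase.mp h3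
      exact ⟨h5, h4, h2⟩
  have hMx : M ≠ x := by
    intro hc
    have : M.length = x.length := by rw [hc]
    omega
  have hMy : M ≠ y := by
    intro hc
    have : M.length = y.length := by rw [hc]
    omega
  have hnotM : ∀ z ∈ F, z ≠ M := by
    intro z hz hc
    have hMF : M ∈ F := hc ▸ hz
    exact hMx (hF x hx M hMF (List.prefix_append x (y.drop k)).isInfix).symm
  set P := st' M with hP
  have hAMG : At G M P := hL.at_ M hMF'
  have hAxG : At G x P := by
    have := At.trans hAMG hAx (by omega)
    simpa using this
  have hAyG : At G y (P + (x.length - k)) := At.trans hAMG hAy (by omega)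
  classical
  let st : List α → ℕ := fun s => if s = x then P else if s = y then P + (x.length - k) else st' s
  have hstx : st x = P := by simp [st]
  have hsty : st y = P + (x.length - k) := by simp [st, hne.symm]
  have hstz : ∀ z, z ≠ x → z ≠ y → st z = st' z := by
    intro z h1 h2
    simp [st, h1, h2]
  -- trichotomy
  have htri : ∀ z ∈ F, z ≠ x → z ≠ y →
      (st' z < P ∧ st' z + z.length < P + x.length) ∨
      (P + (x.length - k) < st' z ∧ P + M.length < st' z + z.length) := by
    intro z hz hzx hzy
    have hzF' := hmemF' z hz hzx hzy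
    have hzM : z ≠ M := hnotM z hz
    have hAz : At G z (st' z) := hL.at_ z hzF'
    have o1 : ¬ (st' z ≤ P ∧ P + M.length ≤ st' z + z.length) := by
      rintro ⟨h1, h2⟩
      exact hzM (hF' M hMF' z hzF' (infix_of_at hAz hAMG h1 h2)).symm
    have o2 : ¬ (P ≤ st' z ∧ st' z + z.length ≤ P + M.length) := by
      rintro ⟨h1, h2⟩
      exact hzM (hF' z hzF' M hMF' (infix_of_at hAMG hAz h1 h2))
    have o3 : ¬ (st' z ≤ P + (x.length - k) ∧ P + (x.length - k) + y.length ≤ st' z + z.length) := by
      rintro ⟨h1, h2⟩
      exact hzy (hF y hy z hz (infix_of_at hAz hAyG h1 h2)).symm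
    have o4 : ¬ (st' z ≤ P ∧ P + x.length ≤ st' z + z.length) := by
      rintro ⟨h1, h2⟩
      exact hzx (hF x hx z hz (infix_of_at hAz hAxG h1 h2)).symm
    by_cases h1 : st' z < P
    · left
      refine ⟨h1, ?_⟩
      by_contra hc
      exact o4 ⟨by omega, by omega⟩
    · right
      have h2 : P ≤ st' z := by omega
      have h3 : P + M.length < st' z + z.length := by
        by_contra hc
        exact o2 ⟨h2, by omega⟩
      refine ⟨?_, h3⟩
      by_contra hc
      exact o3 ⟨by omega, by omega⟩
  -- translation lemmas
  have hOutNe : ∀ s ∈ F', s ≠ M → ∀ ω, HasOut F' st' s ω → HasOut F st s ω := by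
    intro s hs hsM ω ⟨c, hc, h1, h2⟩
    obtain ⟨hsF, hsx, hsy⟩ := hmemF s hs hsM
    rw [HasOut, hstz s hsx hsy]
    by_cases hcM : c = M
    · subst hcM
      exact ⟨x, hx, by rw [hstx]; omega, by rw [hstx]; omega⟩
    · obtain ⟨hcF, hcx, hcy⟩ := hmemF c hc hcM
      exact ⟨c, hcF, by rw [hstz c hcx hcy]; omega, by rw [hstz c hcx hcy]; omega⟩
  have hOutM : ∀ ω, HasOut F' st' M ω → HasOut F st y ω := by
    intro ω ⟨c, hc, h1, h2⟩
    have hcM : c ≠ M := by
      rintro rfl
      omega
    obtain ⟨hcF, hcx, hcy⟩ := hmemF c hc hcM
    refine ⟨c, hcF, ?_, ?_⟩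
    · rw [hstz c hcx hcy, hsty]
      rcases htri c hcF hcx hcy with h3 | h3 <;> omega
    · rw [hstz c hcx hcy, hsty]
      omega
  have hInNe : ∀ s ∈ F', s ≠ M → ∀ ω, HasIn F' st' s ω → HasIn F st s ω := by
    intro s hs hsM ω ⟨c, hc, h1, h2⟩
    obtain ⟨hsF, hsx, hsy⟩ := hmemF s hs hsM
    rw [HasIn, hstz s hsx hsy]
    by_cases hcM : c = M
    · subst hcM
      refine ⟨y, hy, ?_, ?_⟩
      · rw [hsty]
        rcases htri s hsF hsx hsy with h3 | h3 <;> omega
      · rw [hsty]
        omega
    · obtain ⟨hcF, hcx, hcy⟩ := hmemF c hc hcM
      exact ⟨c, hcF, by rw [hstz c hcx hcy]; omega, by rw [hstz c hcx hcy]; omega⟩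
  have hInM : ∀ ω, HasIn F' st' M ω → HasIn F st x ω := by
    intro ω ⟨c, hc, h1, h2⟩
    have hcM : c ≠ M := by
      rintro rfl
      omega
    obtain ⟨hcF, hcx, hcy⟩ := hmemF c hc hcM
    exact ⟨c, hcF, by rw [hstz c hcx hcy, hstx]; omega, by rw [hstz c hcx hcy, hstx]; omega⟩
  have hOutXY : ∀ ω, ω ≤ k → HasOut F st x ω := by
    intro ω hω
    exact ⟨y, hy, by rw [hstx, hsty]; omega, by rw [hstx, hsty]; omega⟩
  have hInYX : ∀ ω, ω ≤ k → HasIn F st y ω := by
    intro ω hω
    exact ⟨x, hx, by rw [hstx, hsty]; omega, by rw [hstx, hsty]; omega⟩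
  refine ⟨st, ?_, ?_, ?_⟩
  · -- at
    intro s hs
    by_cases hsx : s = x
    · subst hsx
      rw [hstx]
      exact hAxG
    · by_cases hsy : s = y
      · subst hsy
        rw [hsty]
        exact hAyG
      · rw [hstz s hsx hsy]
        exact hL.at_ s (hmemF' s hs hsx hsy)
  · -- cover
    intro p hp
    obtain ⟨s, hs, h1, h2⟩ := hL.cover p hp
    by_cases hsM : s = M
    · subst hsM
      by_cases hpx : p < P + x.length
      · exact ⟨x, hx, by rw [hstx]; omega, by rw [hstx]; omega⟩
      · exact ⟨y, hy, by rw [hsty]; omega, by rw [hsty]; omega⟩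
    · obtain ⟨hsF, hsx, hsy⟩ := hmemF s hs hsM
      exact ⟨s, hsF, by rw [hstz s hsx hsy]; omega, by rw [hstz s hsx hsy]; omega⟩
  · -- star
    intro a ha b hb ω hω hov
    by_cases hab : a = b
    · subst hab
      right; right
      exact ⟨le_refl _, fun s _ h1 h2 => absurd h1 (by omega)⟩
    have hωk : ω ≤ k := hmax a ha b hb hab ω hov
    by_cases hax : a = x
    · subst hax
      exact Or.inl (hOutXY ω hωk)
    by_cases hby : b = y
    · subst hby
      exact Or.inr (Or.inl (hInYX ω hωk))
    by_cases hay : a = y
    · subst hay
      by_cases hbx : b = x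
      · subst hbx
        right; right
        refine ⟨by rw [hstx, hsty]; omega, ?_⟩
        intro s hs h1 h2
        by_cases hsx : s = b
        · subst hsx
          exact hOutXY ω hωk
        · by_cases hsy : s = a
          · subst hsy
            omega
          · rw [hstz s hsx hsy, hstx] at h1
            rw [hstz s hsx hsy, hsty] at h2
            rcases htri s hs hsx hsy with h3 | h3 <;> omega
      · -- a = y, b other
        have hbF' := hmemF' b hb hbx hby
        have hbM : b ≠ M := hnotM b hb
        have hov' : IsOverlap M b ω := by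
          refine overlap_of_letters (by have := hov.1; omega) hov.2.1 ?_
          intro m hm
          have hωy := hov.1
          have e1 := hAy (a.length - ω + m) (by omega)
          have e2 := overlap_letters hov hm
          rw [← e2, ← e1]
          congr 1
          omega
        rcases hL.star M hMF' b hbF' ω hω hov' with h1 | h1 | h1
        · exact Or.inl (hOutM ω h1)
        · exact Or.inr (Or.inl (hInNe b hbF' hbM ω h1))
        · right; right
          obtain ⟨h2, h3⟩ := h1
          refine ⟨by rw [hstz b hbx hby, hsty]; omega, ?_⟩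
          intro s hs h4 h5
          by_cases hsx : s = x
          · subst hsx
            exact hOutXY ω hωk
          · by_cases hsy : s = a
            · subst hsy
              omega
            · have hsF' := hmemF' s hs hsx hsy
              have hsM : s ≠ M := hnotM s hs
              rw [hstz s hsx hsy, hstz b hbx hby] at h4
              rw [hstz s hsx hsy, hsty] at h5
              exact hOutNe s hsF' hsM ω (h3 s hsF' h4 (by
                rcases htri s hs hsx hsy with h6 | h6 <;> omega))
    · by_cases hbx : b = x
      · subst hbx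
        have haF' := hmemF' a ha hax hay
        have haM : a ≠ M := hnotM a ha
        have hov' : IsOverlap a M ω := by
          refine overlap_of_letters hov.1 (by have := hov.2.1; omega) ?_
          intro m hm
          have e2 := overlap_letters hov hm
          have e1 := hAx m (by have := hov.2.1; omega)
          rw [e2, ← e1]
          congr 1
          omega
        rcases hL.star a haF' M hMF' ω hω hov' with h1 | h1 | h1
        · exact Or.inl (hOutNe a haF' haM ω h1)
        · exact Or.inr (Or.inl (hInM ω h1))
        · right; right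
          obtain ⟨h2, h3⟩ := h1
          have h2' : P < st' a := by
            rcases htri a ha hax hay with h6 | h6 <;> omega
          refine ⟨by rw [hstz a hax hay, hstx]; omega, ?_⟩
          intro s hs h4 h5
          by_cases hsx : s = b
          · subst hsx
            exact hOutXY ω hωk
          · by_cases hsy : s = y
            · subst hsy
              exact hOutM ω (h3 M hMF' (le_refl _) h2')
            · have hsF' := hmemF' s hs hsx hsy
              have hsM : s ≠ M := hnotM s hs
              rw [hstz s hsx hsy, hstx] at h4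
              rw [hstz s hsx hsy, hstz a hax hay] at h5
              exact hOutNe s hsF' hsM ω (h3 s hsF' h4 h5)
      · -- a, b both other
        have haF' := hmemF' a ha hax hay
        have hbF' := hmemF' b hb hbx hby
        have haM : a ≠ M := hnotM a ha
        have hbM : b ≠ M := hnotM b hb
        rcases hL.star a haF' b hbF' ω hω hov with h1 | h1 | h1
        · exact Or.inl (hOutNe a haF' haM ω h1)
        · exact Or.inr (Or.inl (hInNe b hbF' hbM ω h1))
        · right; right
          obtain ⟨h2, h3⟩ := h1
          refine ⟨by rw [hstz a hax hay, hstz b hbx hby]; omega, ?_⟩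
          intro s hs h4 h5
          rw [hstz b hbx hby] at h4
          rw [hstz a hax hay] at h5
          by_cases hsx : s = x
          · subst hsx
            exact hOutXY ω hωk
          · by_cases hsy : s = y
            · subst hsy
              rw [hsty] at h4 h5
              have h6 : P < st' a := by
                rcases htri a ha hax hay with h6 | h6 <;> omega
              have h7 : st' b ≤ P := by
                rcases htri b hb hbx hby with h7 | h7 <;> omega
              exact hOutM ω (h3 M hMF' h7 h6)
            · have hsF' := hmemF' s hs hsx hsy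
              have hsM : s ≠ M := hnotM s hs
              rw [hstz s hsx hsy] at h4 h5
              exact hOutNe s hsF' hsM ω (h3 s hsF' h4 h5)

theorem layout_of_run {F : Finset (List α)} {G : List α} (hrun : GreedyRun F G) :
    SF F → ∃ st, IsLayout F G st := by
  induction hrun with
  | done s =>
    intro _
    refine ⟨fun _ => 0, ?_, ?_, ?_⟩
    · intro t ht
      rw [Finset.mem_singleton] at ht
      subst ht
      intro k _
      simp
    · intro p hp
      exact ⟨s, Finset.mem_singleton_self _, by simp, by simpa using hp⟩
    · intro a ha b hb ω _ _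
      rw [Finset.mem_singleton] at ha hb
      subst ha hb
      right; right
      exact ⟨le_refl _, fun s _ h1 h2 => absurd h2 (by simp)⟩
  | step hx hy hne h hmax _ ih =>
    intro hF
    obtain ⟨st', hL⟩ := ih (sf_merge hF hx hy hne h hmax)
    exact layout_step hF hx hy hne h hmax st' hL

end Vale.Agent.Lib.P333G
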