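import Vale.Agent.Lib.P333G.Concrete

/-!
# The greedy superstring bound with a periodic error term

Without any hypothesis on the family, `|G| ≤ 2 |T| + #Y` where `Y` is the set of positions of `G`
that carry an occurrence which is a closure head below an occurrence which is a closure tail.
Every position in `Y` is the center of a factor of `G` of length `2d + 1` with period `d`.
-/

namespace Vale.Agent.Lib.P333G

variable {α : Type*}

namespace Setup

variable [DecidableEq α] (D : Setup α)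

/-- positions of `G` with a closure head at or before a closure tail -/
def Yp (p : ℕ) : Prop :=
  ∃ h c, D.IsHead h ∧ D.IsTail c ∧ D.pos h = p ∧ D.pos c = p ∧ D.st h.1 ≤ D.st c.1

open Classical in
/-- tail side -/
noncomputable def ATR : Finset (List α × ℕ) := D.O.filter fun ρ => D.ColT ρ ∧ ¬ D.Yp (D.pos ρ)

open Classical in
/-- head side -/
noncomputable def AHR : Finset (List α × ℕ) := D.O.filter fun ρ => ¬ D.ColT ρ ∧ ¬ D.Yp (D.pos ρ)

open Classical in
/-- occurrences with no link in -/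
noncomputable def TrueFR : Finset (List α × ℕ) := D.O.filter fun a => (∀ u, ¬ D.Lk u a) ∧ ¬ D.Yp (D.pos a)

open Classical in
noncomputable def StartsTR : Finset (List α × ℕ) := D.ATR.filter fun a => ∀ u, ¬ D.Lk u a

open Classical in
noncomputable def StartsHR : Finset (List α × ℕ) := D.AHR.filter fun a => ∀ u ∈ D.AHR, ¬ D.Lk u a

open Classical in
/-- the cut: a link from the tail side into the head side -/
noncomputable def CutR : Finset (List α × ℕ) := D.AHR.filter fun y => ∃ c ∈ D.ATR, D.Lk c y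

open Classical in
noncomputable def BadTR : Finset (List α × ℕ) :=
  D.StartsTR.filter fun a => ∃ t e u, D.EndBad D.ATR a t e u

open Classical in
noncomputable def BetaTR : Finset (List α × ℕ) :=
  D.CutR.filter fun y => ∃ a t e u, a ∈ D.StartsTR ∧ D.EndBad D.ATR a t e u ∧ D.Lk u y

open Classical in
noncomputable def BetaHR : Finset (List α × ℕ) :=
  D.CutR.filter fun y => ∃ t e u, D.EndBad D.AHR y t e u

variable {D}

theorem mem_ATR {ρ : List α × ℕ} : ρ ∈ D.ATR ↔ ρ ∈ D.O ∧ D.ColT ρ ∧ ¬ D.Yp (D.pos ρ) := by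
  simp [ATR]

theorem mem_AHR {ρ : List α × ℕ} : ρ ∈ D.AHR ↔ ρ ∈ D.O ∧ ¬ D.ColT ρ ∧ ¬ D.Yp (D.pos ρ) := by
  simp [AHR]

theorem mem_TrueFR {a : List α × ℕ} :
    a ∈ D.TrueFR ↔ a ∈ D.O ∧ (∀ u, ¬ D.Lk u a) ∧ ¬ D.Yp (D.pos a) := by
  unfold TrueFR
  simp only [Finset.mem_filter]

theorem mem_StartsTR {a : List α × ℕ} : a ∈ D.StartsTR ↔ a ∈ D.ATR ∧ ∀ u, ¬ D.Lk u a := by
  unfold StartsTR
  simp only [Finset.mem_filter]

theorem mem_StartsHR {a : List α × ℕ} : a ∈ D.StartsHR ↔ a ∈ D.AHR ∧ ∀ u ∈ D.AHR, ¬ D.Lk u a := by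
  unfold StartsHR
  simp only [Finset.mem_filter]

theorem mem_CutR {y : List α × ℕ} : y ∈ D.CutR ↔ y ∈ D.AHR ∧ ∃ c ∈ D.ATR, D.Lk c y := by
  unfold CutR
  simp only [Finset.mem_filter]

theorem mem_BadTR {a : List α × ℕ} :
    a ∈ D.BadTR ↔ a ∈ D.StartsTR ∧ ∃ t e u, D.EndBad D.ATR a t e u := by
  unfold BadTR
  simp only [Finset.mem_filter]

theorem mem_BetaTR {y : List α × ℕ} :
    y ∈ D.BetaTR ↔ y ∈ D.CutR ∧ ∃ a t e u, a ∈ D.StartsTR ∧ D.EndBad D.ATR a t e u ∧ D.Lk u y := by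
  unfold BetaTR
  simp only [Finset.mem_filter]

theorem mem_BetaHR {y : List α × ℕ} :
    y ∈ D.BetaHR ↔ y ∈ D.CutR ∧ ∃ t e u, D.EndBad D.AHR y t e u := by
  unfold BetaHR
  simp only [Finset.mem_filter]

theorem AT_subR : D.ATR ⊆ D.O := fun _ h => (mem_ATR.mp h).1

theorem AH_subR : D.AHR ⊆ D.O := fun _ h => (mem_AHR.mp h).1

theorem AT_not_headR {ρ : List α × ℕ} (h : ρ ∈ D.ATR) :
    ¬ D.IsHead ρ := by
  obtain ⟨_, ⟨ρ', _, h2, h3, h4⟩, hY⟩ := mem_ATR.mp h
  exact fun hh => hY ⟨ρ, ρ', hh, h2, rfl, h3, h4⟩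

theorem AH_not_tailR {ρ : List α × ℕ} (h : ρ ∈ D.AHR) : ¬ D.IsTail ρ := by
  obtain ⟨h1, h2, _⟩ := mem_AHR.mp h
  exact fun hh => h2 ⟨ρ, h1, hh, rfl, le_refl _⟩

theorem lk_downR {u w : List α × ℕ} (h : D.Lk u w) (hw : w ∈ D.ATR) : u ∈ D.ATR := by
  obtain ⟨_, ⟨ρ', h1, h2, h3, h4⟩, hY⟩ := mem_ATR.mp hw
  have := h.lt
  refine mem_ATR.mpr ⟨h.hu, ⟨ρ', h1, h2, h3.trans h.eq.symm, by omega⟩, ?_⟩
  rw [h.eq]
  exact hY

theorem lk_upR {u w : List α × ℕ} (h : D.Lk u w) (hu : u ∈ D.AHR) : w ∈ D.AHR := by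
  obtain ⟨_, hn, hY⟩ := mem_AHR.mp hu
  refine mem_AHR.mpr ⟨h.hw, fun hc => ?_, ?_⟩
  · obtain ⟨ρ', h1, h2, h3, h4⟩ := hc
    have := h.lt
    exact hn ⟨ρ', h1, h2, h3.trans h.eq.symm, by omega⟩
  · rw [← h.eq]
    exact hY

theorem free_of_bad_HR {u : List α × ℕ} (hu : u ∈ D.AHR) (h : ∀ b, ¬ D.gg D.AHR u b) :
    ∀ w', ¬ D.Lk u w' := fun w' hl => h w' ⟨hl, hu, lk_upR hl hu⟩

/-- the walk from a true start on the tail side cannot end at a free occurrence -/
theorem exists_link_TR {a e u : List α × ℕ}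
    {t : List ((List α × ℕ) × (List α × ℕ))} (ha : a ∈ D.StartsTR)
    (hE : D.EndBad D.ATR a t e u) : ∃ y, D.Lk u y := by
  by_contra hcon
  push Not at hcon
  obtain ⟨hP, h0, _⟩ := hE
  refine peak (valid_of_path (fun _ _ h => prev_comp AT_subR h) (fun _ _ h => h.1) hP h0)
    (good_end (fun _ _ h => AT_not_headR h.hw) hP h0) (mem_StartsTR.mp ha).2 hcon

theorem side_TR : D.StartsTR.card ≤ (D.Firsts D.ATR).card + (D.StartsTR ∩ D.BadTR).card := by
  refine side_count (p := D.Prev D.ATR) (g := D.gg D.ATR) D.ATR D.StartsTR (D.Firsts D.ATR) D.BadTR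
    (fun u u' w h h' => lk_codet h.1 h'.1) (fun u w w' h h' => prev_codet AT_subR h h')
    (fun a _ u b _ hg => hg.2.2) ?_ ?_ (fun a t e ha hP => path_mem ha hP) ?_
  · intro a ha
    obtain ⟨h1, h2⟩ := mem_StartsTR.mp ha
    exact ⟨h1, fun u hu => h2 u hu.1⟩
  · intro w hw hf
    exact mem_Firsts.mpr ⟨hw, hf⟩
  · intro a t e u ha hP hp hf
    exact mem_BadTR.mpr ⟨ha, t, e, u, hP, hp, hf⟩

theorem bad_leR :
    (D.StartsTR ∩ D.BadTR).card ≤ D.BetaTR.card := by
  refine card_le_of_rel (fun a y => ∃ t e u, D.EndBad D.ATR a t e u ∧ D.Lk u y) ?_ ?_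
  · intro a ha
    obtain ⟨ha1, ha2⟩ := Finset.mem_inter.mp ha
    obtain ⟨_, t, e, u, hE⟩ := mem_BadTR.mp ha2
    obtain ⟨y, hy⟩ := exists_link_TR ha1 hE
    have huT : u ∈ D.ATR := hE.2.1.hu
    have hyH : y ∈ D.AHR := by
      have hYy : ¬ D.Yp (D.pos y) := by
        rw [← hy.eq]
        exact (mem_ATR.mp huT).2.2
      refine mem_AHR.mpr ⟨hy.hw, fun hc => ?_, hYy⟩
      exact hE.2.2 y ⟨hy, huT, mem_ATR.mpr ⟨hy.hw, hc, hYy⟩⟩
    refine ⟨y, mem_BetaTR.mpr ⟨mem_CutR.mpr ⟨hyH, u, huT, hy⟩, a, t, e, u, ha1, hE, hy⟩,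
      t, e, u, hE, hy⟩
  · intro a ha a' ha' y _ ⟨t, e, u, hE, hy⟩ ⟨t', e', u', hE', hy'⟩
    have hu : u = u' := lk_codet hy hy'
    subst hu
    have he : e = e' := prev_codet AT_subR hE.2.1 hE'.2.1
    subst he
    obtain ⟨ha1, _⟩ := Finset.mem_inter.mp ha
    obtain ⟨ha1', _⟩ := Finset.mem_inter.mp ha'
    exact path_inj (p := D.Prev D.ATR) (g := D.gg D.ATR) (fun u u' w h h' => lk_codet h.1 h'.1)
      (fun u w w' h h' => prev_codet AT_subR h h') _ a a' e t t' rfl hE.1 hE'.1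
      (fun v hv => (mem_StartsTR.mp ha1).2 v hv.1)
      (fun v hv => (mem_StartsTR.mp ha1').2 v hv.1)

theorem side_HR :
    D.StartsHR.card ≤ (D.Firsts D.AHR).card + (D.StartsHR ∩ D.BetaHR).card := by
  refine side_count (p := D.Prev D.AHR) (g := D.gg D.AHR) D.AHR D.StartsHR (D.Firsts D.AHR) D.BetaHR
    (fun u u' w h h' => lk_codet h.1 h'.1) (fun u w w' h h' => prev_codet AH_subR h h')
    (fun a _ u b _ hg => hg.2.2) ?_ ?_ (fun a t e ha hP => path_mem ha hP) ?_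
  · intro a ha
    obtain ⟨h1, h2⟩ := mem_StartsHR.mp ha
    exact ⟨h1, fun u hu => h2 u hu.2.1 hu.1⟩
  · intro w hw hf
    exact mem_Firsts.mpr ⟨hw, hf⟩
  · intro a t e u ha hP hp hf
    obtain ⟨ha1, ha2⟩ := mem_StartsHR.mp ha
    have huH : u ∈ D.AHR := hp.hu
    have hfree := free_of_bad_HR huH hf
    have hpred : ∃ c, D.Lk c a := by
      by_contra hcon
      push Not at hcon
      refine peak (valid_of_path (fun _ _ h => prev_comp AH_subR h) (fun _ _ h => h.1) hP hp)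
        (allNT_good _ _ _ (allNT_path (fun _ _ h => AH_not_tailR h.hu) hP hp)) hcon hfree
    obtain ⟨c, hc⟩ := hpred
    have hcT : c ∈ D.ATR := by
      have hYc : ¬ D.Yp (D.pos c) := by
        rw [hc.eq]
        exact (mem_AHR.mp ha1).2.2
      refine mem_ATR.mpr ⟨hc.hu, ?_, hYc⟩
      by_contra hcon
      exact ha2 c (mem_AHR.mpr ⟨hc.hu, hcon, hYc⟩) hc
    exact mem_BetaHR.mpr ⟨mem_CutR.mpr ⟨ha1, c, hcT, hc⟩, t, e, u, hP, hp, hf⟩

theorem beta_disjR : Disjoint D.BetaTR D.BetaHR := by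
  rw [Finset.disjoint_left]
  intro y h1 h2
  obtain ⟨_, a, t, e, u, ha, hE, hy⟩ := mem_BetaTR.mp h1
  obtain ⟨_, t₂, e₂, u₂, hP₂, hp₂, hf₂⟩ := mem_BetaHR.mp h2
  obtain ⟨hP, hp, _⟩ := hE
  have hV₂ : Valid D.Comp D.Lk y t₂ u₂ :=
    valid_of_path (fun _ _ h => prev_comp AH_subR h) (fun _ _ h => h.1) hP₂ hp₂
  have hG₂ : GoodL (fun ρ => ¬ D.IsTail ρ) (fun ρ => ¬ D.IsHead ρ) y t₂ u₂ :=
    allNT_good _ _ _ (allNT_path (fun _ _ h => AH_not_tailR h.hu) hP₂ hp₂)
  exact peak (valid_concat (fun _ _ h => prev_comp AT_subR h) (fun _ _ h => h.1) hP hp hy hV₂)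
    (good_concat (fun _ _ h => AT_not_headR h.hw) hP hp hG₂)
    (mem_StartsTR.mp ha).2 (free_of_bad_HR hp₂.hu hf₂)

theorem beta_leR : D.BetaTR.card + D.BetaHR.card ≤ D.CutR.card := by
  rw [← Finset.card_union_of_disjoint beta_disjR]
  refine Finset.card_le_card ?_
  intro y hy
  rcases Finset.mem_union.mp hy with h | h
  · exact (mem_BetaTR.mp h).1
  · exact (mem_BetaHR.mp h).1

theorem trueF_splitR : D.TrueFR.card + D.CutR.card ≤ D.StartsTR.card + D.StartsHR.card := by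
  have hdisj : Disjoint D.TrueFR D.CutR := by
    rw [Finset.disjoint_left]
    intro y h1 h2
    obtain ⟨_, c, _, hc⟩ := mem_CutR.mp h2
    exact (mem_TrueFR.mp h1).2.1 c hc
  rw [← Finset.card_union_of_disjoint hdisj]
  refine le_trans (Finset.card_le_card ?_) (Finset.card_union_le _ _)
  intro y hy
  rcases Finset.mem_union.mp hy with h | h
  · obtain ⟨h1, h2, h3⟩ := mem_TrueFR.mp h
    by_cases hc : D.ColT y
    · exact Finset.mem_union_left _ (mem_StartsTR.mpr ⟨mem_ATR.mpr ⟨h1, hc, h3⟩, h2⟩)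
    · exact Finset.mem_union_right _
        (mem_StartsHR.mpr ⟨mem_AHR.mpr ⟨h1, hc, h3⟩, fun u _ => h2 u⟩)
  · obtain ⟨h1, c, hcT, hc⟩ := mem_CutR.mp h
    refine Finset.mem_union_right _ (mem_StartsHR.mpr ⟨h1, fun u hu hl => ?_⟩)
    have : u = c := lk_codet hl hc
    subst this
    exact (mem_AHR.mp hu).2.1 (mem_ATR.mp hcT).2.1

open Classical in
theorem G_leR : ((Finset.range D.G.length).filter fun p => ¬ D.Yp p).card ≤ D.TrueFR.card := by
  have := card_le_of_rel (P := (Finset.range D.G.length).filter fun p => ¬ D.Yp p) (Q := D.TrueFR)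
    (fun p φ => D.pos φ = p) ?_ ?_
  · exact this
  · intro p hp
    obtain ⟨hp0, hpY⟩ := Finset.mem_filter.mp hp
    have hp' := Finset.mem_range.mp hp0
    obtain ⟨s0, hs0, h1, h2⟩ := D.hL.cover p hp'
    have hne : (D.F.filter fun s => D.st s ≤ p ∧ p < D.st s + s.length).Nonempty :=
      ⟨s0, Finset.mem_filter.mpr ⟨hs0, h1, h2⟩⟩
    obtain ⟨s, hs, hmin⟩ := Finset.exists_min_image _ D.st hne
    obtain ⟨hs1, hs2, hs3⟩ := Finset.mem_filter.mp hs
    have hposs : D.pos (s, p - D.st s) = p := by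
      show D.st s + (p - D.st s) = p
      omega
    refine ⟨(s, p - D.st s), ?_, hposs⟩
    refine mem_TrueFR.mpr ⟨D.mem_O.mpr ⟨hs1, ?_⟩, ?_, ?_⟩
    · show p - D.st s < s.length
      omega
    · intro u hu
      have e1 : D.st u.1 + u.2 = D.st s + (p - D.st s) := hu.eq
      have hu1 := D.mem_O.mp hu.hu
      have h3 := hmin u.1 (Finset.mem_filter.mpr ⟨hu1.1, by omega, by omega⟩)
      have h4 : D.st u.1 < D.st s := hu.lt
      omega
    · rw [hposs]
      exact hpY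
  · intro a _ a' _ b _ h1 h2
    exact h1.symm.trans h2

open Classical in
/-- **Main bound.** -/
theorem main_npR : ((Finset.range D.G.length).filter fun p => ¬ D.Yp p).card ≤ 2 * D.T.length := by
  have h1 := G_leR (D := D)
  have h2 := trueF_splitR (D := D)
  have h3 := side_TR (D := D)
  have h4 := bad_leR (D := D)
  have h5 := side_HR (D := D)
  have h6 : (D.StartsHR ∩ D.BetaHR).card ≤ D.BetaHR.card :=
    Finset.card_le_card Finset.inter_subset_right
  have h7 := beta_leR (D := D)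
  have h8 := firsts_card (D := D) AT_subR
  have h9 := firsts_card (D := D) AH_subR
  omega


/-- the window of a periodic closure -/
theorem window {p : ℕ} (hY : D.Yp p) :
    ∃ u w, D.CP u w ∧ D.st u.1 + u.1.length ≤ p + om u w ∧ p < D.st w.1 + om u w := by
  obtain ⟨h, c, ⟨q1, hq1⟩, ⟨q2, hq2⟩, hph, hpc, hle⟩ := hY
  have cl1 := cp_closed hq1
  have cl2 := cp_closed hq2
  obtain ⟨hc1, hT1, hH1⟩ := id hq1
  obtain ⟨hc2, hT2, hH2⟩ := id hq2
  obtain ⟨hP, hip⟩ := D.mem_O.mp hc1.hu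
  obtain ⟨hH, hjh⟩ := D.mem_O.mp hc1.hw
  obtain ⟨hC, hic⟩ := D.mem_O.mp hc2.hu
  obtain ⟨hQ, hjq⟩ := D.mem_O.mp hc2.hw
  have lt1 := hc1.lt
  have lt2 := hc2.lt
  have ePh : D.st h.1 + h.2 = p := hph
  have ePc : D.st c.1 + c.2 = p := hpc
  have eω1 : om q1 h = q1.1.length - q1.2 + h.2 := rfl
  have eω2 : om c q2 = c.1.length - c.2 + q2.2 := rfl
  have w2E : D.st c.1 + c.1.length ≤ p + om c q2 := by omega
  by_cases hB : D.st q1.1 < D.st c.1
  · refine ⟨q1, h, hq1, ?_, by omega⟩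
    by_contra hcon
    exact hT1 ⟨c.1, hC, hB, by omega⟩
  · by_cases hω : om q1 h < om c q2
    · refine ⟨c, q2, hq2, w2E, ?_⟩
      have hS : D.st h.1 ≤ D.st q2.1 := by
        by_contra hcon
        have h3 : HasIn D.F D.st h.1 (om c q2) :=
          closed_hasIn cl2 hQ (by omega) hle
        exact hH1 (hasIn_mono h3 (by omega))
      omega
    · refine ⟨q1, h, hq1, ?_, by omega⟩
      rcases lt_or_eq_of_le (not_lt.mp hB) with hlt | heq
      · exfalso
        have h3 : HasOut D.F D.st c.1 (om q1 h) := cl1.2 c.1 hC hle hlt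
        exact hT2 (hasOut_mono h3 (by omega))
      · have e1 : c.1 = q1.1 := stinj hC hP heq
        have elen : c.1.length = q1.1.length := by rw [e1]
        omega

/-- a position in `Y` is the center of a factor of length `2 d + 1` with period `d` -/
theorem center {p : ℕ} (hY : D.Yp p) :
    ∃ d, 0 < d ∧ d ≤ p ∧ p + d < D.G.length ∧
      ∀ i, i ≤ d → D.G[p - d + i]? = D.G[p + i]? := by
  obtain ⟨u, w, hcp, h1, h2⟩ := window hY
  obtain ⟨hc, _, _⟩ := id hcp
  obtain ⟨hu1, hu2⟩ := D.mem_O.mp hc.hu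
  obtain ⟨hw1, hw2⟩ := D.mem_O.mp hc.hw
  have hcl := (cp_closed hcp).1
  have hlt := hc.lt
  have hl := hc.lenlt
  have hov := overlap_of_comp hc
  have eω : om u w = u.1.length - u.2 + w.2 := rfl
  have hE : D.st u.1 + u.1.length ≤ D.G.length := by
    have := (D.hL.at_ u.1 hu1).lt (k := u.1.length - 1) (by omega)
    omega
  set ω := om u w with hω
  refine ⟨D.st u.1 + u.1.length - ω - D.st w.1, by omega, by omega, by omega, ?_⟩
  intro i hi
  have hm : p - (D.st u.1 + u.1.length - ω - D.st w.1) + i - D.st w.1 < ω := by omega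
  have hlet := overlap_letters hov hm
  have e1 := D.hL.at_ w.1 hw1 (p - (D.st u.1 + u.1.length - ω - D.st w.1) + i - D.st w.1)
    (by omega)
  have e2 := D.hL.at_ u.1 hu1
    (u.1.length - ω + (p - (D.st u.1 + u.1.length - ω - D.st w.1) + i - D.st w.1)) (by omega)
  rw [← e1, ← e2] at hlet
  have i1 : D.st w.1 + (p - (D.st u.1 + u.1.length - ω - D.st w.1) + i - D.st w.1) =
      p - (D.st u.1 + u.1.length - ω - D.st w.1) + i := by omega
  have i2 : D.st u.1 + (u.1.length - ω + (p - (D.st u.1 + u.1.length - ω - D.st w.1) + i -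
      D.st w.1)) = p + i := by omega
  rw [i1, i2] at hlet
  exact hlet.symm

open Classical in
/-- **General bound** -/
theorem general : D.G.length ≤ 2 * D.T.length +
    ((Finset.range D.G.length).filter fun p => D.Yp p).card := by
  have h := main_npR (D := D)
  have e := Finset.card_filter_add_card_filter_not (s := Finset.range D.G.length)
    (p := fun p => D.Yp p)
  simp only [Finset.card_range] at e
  omega

end Setup

end Vale.Agent.Lib.P333G
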